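import Vale.Agent.P235.H154.Menger
import Vale.Agent.P235.H134.Grid.Stmts

/-!
# (G1) Menger, in the form of the typed interface (helper154)
-/

set_option autoImplicit false

open SimpleGraph Finset

namespace Vale.Agent.P235.H154

open Vale.Agent.P235.H134

/-- a system of disjoint paths gives a linkage -/
theorem linked_of_link {V : Type} {G : SimpleGraph V} {R : V → V → Prop}
    (hR : ∀ a b, R a b → G.Adj a b) {A B : Finset V} {k : ℕ} {v : Fin k → ℕ → V} {L : Fin k → ℕ}
    (h : Link R A B v L) : Linked G (A : Set V) (B : Set V) k := by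
  obtain ⟨v', L', h', hA, hB, _⟩ := h.trim
  refine ⟨fun i => ⟨L' i, v' i, fun j hj => hR _ _ (h'.adj i j hj),
    fun a ha b hb e => (h'.inj i a i b ha hb e).2⟩, ?_, ?_⟩
  · intro i
    exact ⟨h'.start i, h'.stop i, fun j hj hjA => hA i j hj hjA, fun j hj hjB => hB i j hj hjB⟩
  · intro i j hij
    rw [Set.disjoint_left]
    rintro x ⟨a, ha, rfl⟩ ⟨b, hb, e⟩
    exact hij (h'.inj i a j b ha hb e.symm).1

/-- **(G1) Menger's theorem** -/
theorem mengerStmt : MengerStmt := by
  intro V _ G A B k
  classical
  have := Fintype.ofFinite V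
  rcases menger G.Adj A.toFinset B.toFinset k with ⟨v, L, h⟩ | ⟨S, hS, hsep⟩
  · left
    have h1 := linked_of_link (fun a b hab => hab) h
    rwa [Set.coe_toFinset, Set.coe_toFinset] at h1
  · right
    refine ⟨S, hS, ?_⟩
    intro a ha b hb w
    obtain ⟨j, _, hjS⟩ := hsep w.getVert w.length (by simpa using ha) (by simpa using hb)
      fun j hj => w.adj_getVert_succ hj
    exact ⟨w.getVert j, w.getVert_mem_support j, hjS⟩

end Vale.Agent.P235.H154
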