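import Vale.Agent.P235.H154.Cross
import Vale.Agent.P235.H154.GridMenger

/-!
# (G7b) the core, in the form of the typed interface (helper154)
-/

set_option autoImplicit false

open SimpleGraph Finset

namespace Vale.Agent.P235.H154

open Vale.Agent.P235.H134

/-- the vertex set of a path is connected -/
theorem pth_connected {V : Type} {G : SimpleGraph V} (P : Pth G) : (G.induce P.verts).Connected := by
  rw [SimpleGraph.connected_iff_exists_forall_reachable]
  refine ⟨⟨P.f 0, 0, Nat.zero_le _, rfl⟩, ?_⟩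
  rintro ⟨x, t, ht, rfl⟩
  induction t with
  | zero => exact SimpleGraph.Reachable.refl _
  | succ t ih =>
    refine (ih (by omega)).trans (SimpleGraph.Adj.reachable ?_)
    exact P.adj t (by omega)

/-- **(G7b)** -/
theorem coreStmt : CoreStmt := by
  intro q d M _ hd V _ G A B L κ _ Q hL hQ hnew U H hU hH hmeet
  classical
  have := Fintype.ofFinite V
  have := Fintype.ofFinite κ
  set e : Fin (Fintype.card κ) ≃ κ := (Fintype.equivFin κ).symm with he
  set u : Fin (Fintype.card κ) → ℕ → V := fun i => (Q (e i)).f with hu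
  set MM : Fin (Fintype.card κ) → ℕ := fun i => (Q (e i)).len with hMM
  set w : Fin M → ℕ → V := fun a => (L a).f with hw
  set N : Fin M → ℕ := fun a => (L a).len with hN
  -- the vertical paths
  have hu1 : ∀ i j i' j', j ≤ MM i → j' ≤ MM i' → u i j = u i' j' → i = i' ∧ j = j' := by
    intro i j i' j' hj hj' h
    have hii : i = i' := by
      by_contra hne
      have h1 := hQ (e i) (e i') (fun h => hne (e.injective h))
      exact Set.disjoint_left.1 h1 ⟨j, hj, h⟩ ⟨j', hj', rfl⟩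
    subst hii
    exact ⟨rfl, (Q (e i)).inj j hj j' hj' h⟩
  -- the horizontal paths
  have hw1 : Link (Ed w N) A.toFinset B.toFinset w N := by
    refine ⟨fun i => by simpa using (hL.1 i).1, fun i => by simpa using (hL.1 i).2.1,
      fun i j hj => Ed.mk' w N i hj, ?_⟩
    intro i j i' j' hj hj' h
    have hii : i = i' := by
      by_contra hne
      exact Set.disjoint_left.1 (hL.2 i i' hne) ⟨j, hj, h⟩ ⟨j', hj', rfl⟩
    subst hii
    exact ⟨rfl, (L i).inj j hj j' hj' h⟩
  -- edges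
  have hEdu : ∀ a b, Ed u MM a b ↔ ∃ x, (Q x).EdgeOf a b := by
    intro a b
    constructor
    · rintro ⟨i, j, hj, h⟩
      exact ⟨e i, j, hj, h.imp (fun h => ⟨h.1.symm, h.2.symm⟩) fun h => ⟨h.1.symm, h.2.symm⟩⟩
    · rintro ⟨x, j, hj, h⟩
      refine ⟨e.symm x, j, ?_, ?_⟩
      · simpa [hMM] using hj
      · simp only [hu, Equiv.apply_symm_apply]
        exact h.imp (fun h => ⟨h.1.symm, h.2.symm⟩) fun h => ⟨h.1.symm, h.2.symm⟩
  have hEdw : ∀ a b, Ed w N a b ↔ ∃ x, (L x).EdgeOf a b := by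
    intro a b
    constructor
    · rintro ⟨i, j, hj, h⟩
      exact ⟨i, j, hj, h.imp (fun h => ⟨h.1.symm, h.2.symm⟩) fun h => ⟨h.1.symm, h.2.symm⟩⟩
    · rintro ⟨x, j, hj, h⟩
      exact ⟨x, j, hj, h.imp (fun h => ⟨h.1.symm, h.2.symm⟩) fun h => ⟨h.1.symm, h.2.symm⟩⟩
  have hv1 : ∀ h, ∀ j < N h, ¬ Ed u MM (w h j) (w h (j + 1)) →
      ¬ ∃ (v : Fin M → ℕ → V) (L' : Fin M → ℕ),
        Link (fun a b => (Ed u MM a b ∨ Ed w N a b) ∧ s(a, b) ≠ s(w h j, w h (j + 1)))
          A.toFinset B.toFinset v L' := by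
    rintro h j hj hne ⟨v, L', hv⟩
    refine hnew h j hj (fun x hx => hne ((hEdu _ _).2 ⟨x, hx⟩)) ?_
    have h1 := linked_of_link (G := ((⨆ x, (Q x).graph) ⊔ ⨆ a, (L a).graph).deleteEdges
      {s((L h).f j, (L h).f (j + 1))}) ?_ hv
    · rwa [Set.coe_toFinset, Set.coe_toFinset] at h1
    · rintro a b ⟨h1, h2⟩
      rw [SimpleGraph.deleteEdges_adj]
      refine ⟨?_, fun h3 => h2 (Set.mem_singleton_iff.1 h3)⟩
      rw [SimpleGraph.sup_adj, SimpleGraph.iSup_adj, SimpleGraph.iSup_adj]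
      exact h1.imp (fun h => (hEdu _ _).1 h) fun h => (hEdw _ _).1 h
  -- the sets
  obtain ⟨h₀, hh₀⟩ : H.Nonempty := card_pos.1 (by omega)
  set Vs : Finset (Fin (Fintype.card κ)) := U.map e.symm.toEmbedding with hVs
  have hVc : d * d * M ≤ Vs.card := by rw [hVs, card_map]; exact hU
  have hVm : ∀ i ∈ Vs, e i ∈ U := by
    intro i hi
    obtain ⟨x, hx, rfl⟩ := mem_map.1 hi
    simpa using hx
  obtain ⟨Vn, x, hVinj, hVn, hx⟩ := crossing hd u MM w N hu1 hw1 hv1 Vs hVc h₀ (H.erase h₀)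
    (notMem_erase _ _) (by
      intro i hi h hh
      rw [insert_erase hh₀] at hh
      obtain ⟨y, ⟨m, hm, hm'⟩, j, hj, hj'⟩ := hmeet (e i) (hVm i hi) h hh
      exact ⟨m, hm, j, hj, hm'.trans hj'.symm⟩)
  -- the indices of the horizontal paths
  have hcard : q ≤ (H.erase h₀).card := by
    rw [card_erase_of_mem hh₀]; omega
  set ι : Fin q → Fin M := fun i => (H.erase h₀).orderEmbOfCardLe hcard i with hι
  have hιinj : Function.Injective ι := fun i j h =>
    ((H.erase h₀).orderEmbOfCardLe hcard).injective h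
  have hιmem : ∀ i, ι i ∈ H.erase h₀ := fun i => orderEmbOfCardLe_mem _ hcard i
  have hmono : ∀ i, Monotone fun n => x (ι i) (min n d) := by
    intro i
    refine monotone_nat_of_le_succ fun n => ?_
    show x (ι i) (min n d) ≤ x (ι i) (min (n + 1) d)
    rcases lt_or_ge n d with h | h
    · rw [min_eq_left h.le, min_eq_left (Nat.succ_le_of_lt h)]
      exact ((hx _ (hιmem i)).2.2.1 n h).le
    · rw [min_eq_right h, min_eq_right (h.trans (Nat.le_succ n))]
  refine ⟨fun i => L (ι i), fun n => (Q (e (Vn n))).verts, fun i n => x (ι i) (min n d), ?_, ?_, ?_,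
    hmono, ?_, ?_⟩
  · intro i j hij
    exact hL.2 _ _ fun h => hij (hιinj h)
  · intro n
    exact pth_connected _
  · intro n n' hn
    exact hQ _ _ fun h => hn (hVinj (e.injective h))
  · intro i n
    obtain ⟨y, hy, j, hj, hj'⟩ := hmeet (e (Vn n)) (hVm _ (hVn n)) (ι i) (mem_erase.1 (hιmem i)).2
    exact ⟨j, hj, by rw [hj']; exact hy⟩
  · rintro i n t ht ⟨m, hm, he'⟩
    have h1 := (hx _ (hιmem i)).2.2.2 n m hm t ht he'
    simp only
    rw [min_eq_left n.2.le, min_eq_left (Nat.succ_le_of_lt n.2)]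
    exact h1

end Vale.Agent.P235.H154
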