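import Mathlib

/-!
# P235, bounded treewidth into `L₁` (proof of helper11, note 9610), section 5: the environments
along a root path, the differences `D` (helper154)

A path of finite environments `E 0, .., E n` with pair laws `q i` of consecutive environments; on the
adhesion `A (i+1)` the function `g (i+1)` is the average of `g i` (given the next environment) and the
order of two values of `g i` is a function of the next environment.
-/

set_option autoImplicit false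

open Finset

noncomputable section

namespace Vale.Agent.P235.H154

/-- a path of environments -/
structure PathEnv (V : Type) [DecidableEq V] where
  /-- the number of steps -/
  n : ℕ
  /-- the environments of the nodes `0, .., n` -/
  E : ℕ → Type
  [fE : ∀ i, Fintype (E i)]
  /-- their laws -/
  p : ∀ i, E i → ℝ
  /-- the laws of two consecutive environments -/
  q : ∀ i, E i → E (i + 1) → ℝ
  /-- adhesions (`A 0` is not used) -/
  A : ℕ → Finset V
  /-- bags -/
  B : ℕ → Finset V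
  /-- the new vertex (`z 0` is not used) -/
  z : ℕ → V
  /-- the random functions -/
  g : ∀ i, E i → V → ℝ
  p_nonneg : ∀ i ω, 0 ≤ p i ω
  p_sum : ∀ i ≤ n, ∑ ω, p i ω = 1
  q_nonneg : ∀ i ω ω', 0 ≤ q i ω ω'
  q_left : ∀ i < n, ∀ ω, ∑ ω', q i ω ω' = p i ω
  q_right : ∀ i < n, ∀ ω', ∑ ω, q i ω ω' = p (i + 1) ω'
  A_sub : ∀ i < n, A (i + 1) ⊆ B i
  A_ne : ∀ i < n, (A (i + 1)).Nonempty
  B_succ : ∀ i < n, B (i + 1) = insert (z (i + 1)) (A (i + 1))
  /-- on the adhesion the function is averaged -/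
  avg : ∀ i < n, ∀ a ∈ A (i + 1), ∀ ω', p (i + 1) ω' * g (i + 1) ω' a = ∑ ω, q i ω ω' * g i ω a
  /-- the order of two vertices of the adhesion is a function of the next environment -/
  ord : ∀ i < n, ∀ a ∈ A (i + 1), ∀ b ∈ A (i + 1), ∀ ω',
    (∀ ω, 0 < q i ω ω' → g i ω a ≤ g i ω b) ∨ (∀ ω, 0 < q i ω ω' → g i ω b ≤ g i ω a)

attribute [instance] PathEnv.fE

namespace PathEnv

variable {V : Type} [DecidableEq V] (S : PathEnv V)

/-- the average over the previous environment -/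
def av (i : ℕ) (f : S.E i → ℝ) (ω' : S.E (i + 1)) : ℝ := (∑ ω, S.q i ω ω' * f ω) / S.p (i + 1) ω'

/-- **the differences** `D` -/
def D : ∀ i, S.E i → V → ℝ
  | 0 => fun _ _ => 0
  | i + 1 => fun ω' y => if y ∈ S.A (i + 1) then S.av i (fun ω => D i ω y) ω'
      else ⨅ a : S.A (i + 1), (S.av i (fun ω => D i ω a) ω' +
        |S.g (i + 1) ω' y - S.g (i + 1) ω' a|)

@[simp] theorem D_zero (ω : S.E 0) (y : V) : S.D 0 ω y = 0 := rfl

theorem D_of_mem {i : ℕ} {y : V} (h : y ∈ S.A (i + 1)) (ω' : S.E (i + 1)) :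
    S.D (i + 1) ω' y = S.av i (fun ω => S.D i ω y) ω' := by
  simp only [D, if_pos h]

theorem D_of_not_mem {i : ℕ} {y : V} (h : y ∉ S.A (i + 1)) (ω' : S.E (i + 1)) :
    S.D (i + 1) ω' y = ⨅ a : S.A (i + 1), (S.av i (fun ω => S.D i ω a) ω' +
        |S.g (i + 1) ω' y - S.g (i + 1) ω' a|) := by
  simp only [D, if_neg h]

theorem q_zero {i : ℕ} (hi : i < S.n) {ω' : S.E (i + 1)} (h : S.p (i + 1) ω' = 0) (ω : S.E i) :
    S.q i ω ω' = 0 := by
  have h1 := S.q_right i hi ω'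
  rw [h] at h1
  exact (sum_eq_zero_iff_of_nonneg fun _ _ => S.q_nonneg i _ ω').1 h1 ω (mem_univ ω)

theorem p_mul_av {i : ℕ} (hi : i < S.n) (f : S.E i → ℝ) (ω' : S.E (i + 1)) :
    S.p (i + 1) ω' * S.av i f ω' = ∑ ω, S.q i ω ω' * f ω := by
  unfold av
  rcases eq_or_ne (S.p (i + 1) ω') 0 with h | h
  · rw [h, zero_mul]
    exact (sum_eq_zero fun ω _ => by rw [S.q_zero hi h ω, zero_mul]).symm
  · field_simp

/-- on the adhesion `D` is averaged -/
theorem D_avg {i : ℕ} (hi : i < S.n) {a : V} (ha : a ∈ S.A (i + 1)) (ω' : S.E (i + 1)) :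
    S.p (i + 1) ω' * S.D (i + 1) ω' a = ∑ ω, S.q i ω ω' * S.D i ω a := by
  rw [S.D_of_mem ha, S.p_mul_av hi]

theorem av_nonneg {i : ℕ} {f : S.E i → ℝ} (hf : ∀ ω, 0 ≤ f ω) (ω' : S.E (i + 1)) :
    0 ≤ S.av i f ω' :=
  div_nonneg (sum_nonneg fun ω _ => mul_nonneg (S.q_nonneg _ _ _) (hf ω)) (S.p_nonneg _ _)

theorem D_nonneg : ∀ (i : ℕ) (ω : S.E i) (y : V), 0 ≤ S.D i ω y
  | 0, _, _ => le_rfl
  | i + 1, ω', y => by
    simp only [D]
    split_ifs with h
    · exact S.av_nonneg (fun ω => D_nonneg i ω y) ω'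
    · exact Real.iInf_nonneg fun a => add_nonneg (S.av_nonneg (fun ω => D_nonneg i ω a) ω')
        (abs_nonneg _)

/-- the value of `D` at a new vertex is attained -/
theorem D_min {i : ℕ} (hi : i < S.n) {y : V} (hy : y ∉ S.A (i + 1)) (ω' : S.E (i + 1)) :
    ∃ a ∈ S.A (i + 1), S.D (i + 1) ω' y =
      S.D (i + 1) ω' a + |S.g (i + 1) ω' y - S.g (i + 1) ω' a| := by
  have : Nonempty (S.A (i + 1)) := (S.A_ne i hi).to_subtype
  obtain ⟨a, ha⟩ := exists_eq_ciInf_of_finite (f := fun a : S.A (i + 1) =>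
    (S.av i (fun ω => S.D i ω a) ω' + |S.g (i + 1) ω' y - S.g (i + 1) ω' a|))
  refine ⟨a, a.2, ?_⟩
  rw [S.D_of_mem a.2, ha, S.D_of_not_mem hy]

theorem D_le {i : ℕ} {y : V} (hy : y ∉ S.A (i + 1)) {a : V} (ha : a ∈ S.A (i + 1))
    (ω' : S.E (i + 1)) : S.D (i + 1) ω' y ≤
      S.D (i + 1) ω' a + |S.g (i + 1) ω' y - S.g (i + 1) ω' a| := by
  rw [S.D_of_mem ha, S.D_of_not_mem hy]
  exact ciInf_le (Set.finite_range _).bddBelow (⟨a, ha⟩ : S.A (i + 1))

/-- for vertices of the adhesion the averages of a difference and of its absolute value agree -/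
theorem av_abs {i : ℕ} (hi : i < S.n) {a b : V} (ha : a ∈ S.A (i + 1)) (hb : b ∈ S.A (i + 1))
    (ω' : S.E (i + 1)) : ∑ ω, S.q i ω ω' * |S.g i ω a - S.g i ω b| =
      S.p (i + 1) ω' * |S.g (i + 1) ω' a - S.g (i + 1) ω' b| := by
  have h1 : S.p (i + 1) ω' * (S.g (i + 1) ω' a - S.g (i + 1) ω' b) =
      ∑ ω, S.q i ω ω' * (S.g i ω a - S.g i ω b) := by
    rw [mul_sub, S.avg i hi a ha, S.avg i hi b hb, ← sum_sub_distrib]
    exact sum_congr rfl fun ω _ => by ring
  have h2 : S.p (i + 1) ω' * |S.g (i + 1) ω' a - S.g (i + 1) ω' b| =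
      |∑ ω, S.q i ω ω' * (S.g i ω a - S.g i ω b)| := by
    rw [← h1, abs_mul, abs_of_nonneg (S.p_nonneg _ _)]
  rw [h2]
  rcases S.ord i hi a ha b hb ω' with h | h
  · have h3 : ∀ ω, S.q i ω ω' * (S.g i ω a - S.g i ω b) ≤ 0 := by
      intro ω
      rcases (S.q_nonneg i ω ω').eq_or_lt with h4 | h4
      · rw [← h4, zero_mul]
      · exact mul_nonpos_of_nonneg_of_nonpos h4.le (by linarith [h ω h4])
    rw [abs_of_nonpos (sum_nonpos fun ω _ => h3 ω), ← sum_neg_distrib]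
    refine sum_congr rfl fun ω _ => ?_
    rw [← abs_of_nonneg (S.q_nonneg i ω ω'), ← abs_mul, abs_of_nonneg (S.q_nonneg i ω ω'),
      abs_of_nonpos (h3 ω)]
  · have h3 : ∀ ω, 0 ≤ S.q i ω ω' * (S.g i ω a - S.g i ω b) := by
      intro ω
      rcases (S.q_nonneg i ω ω').eq_or_lt with h4 | h4
      · rw [← h4, zero_mul]
      · exact mul_nonneg h4.le (by linarith [h ω h4])
    rw [abs_of_nonneg (sum_nonneg fun ω _ => h3 ω)]
    refine sum_congr rfl fun ω _ => ?_
    rw [← abs_of_nonneg (S.q_nonneg i ω ω'), ← abs_mul, abs_of_nonneg (S.q_nonneg i ω ω'),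
      abs_of_nonneg (h3 ω)]

/-- **`D` is dominated by `g`** -/
theorem D_lip : ∀ (i : ℕ), i ≤ S.n → ∀ (ω : S.E i), ∀ a ∈ S.B i, ∀ b ∈ S.B i,
    |S.D i ω a - S.D i ω b| ≤ |S.g i ω a - S.g i ω b|
  | 0, _, _, _, _, _, _ => by simp
  | i + 1, hi, ω', a, ha, b, hb => by
    have hi' : i < S.n := hi
    have hAA : ∀ a ∈ S.A (i + 1), ∀ b ∈ S.A (i + 1),
        |S.D (i + 1) ω' a - S.D (i + 1) ω' b| ≤ |S.g (i + 1) ω' a - S.g (i + 1) ω' b| := by
      intro a ha b hb
      rcases eq_or_ne (S.p (i + 1) ω') 0 with h | h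
      · rw [S.D_of_mem ha, S.D_of_mem hb]
        unfold av
        rw [h, div_zero, div_zero, sub_self, abs_zero]
        exact abs_nonneg _
      · have h0 : 0 < S.p (i + 1) ω' := lt_of_le_of_ne (S.p_nonneg _ _) (Ne.symm h)
        refine le_of_mul_le_mul_left ?_ h0
        rw [← S.av_abs hi' ha hb]
        calc S.p (i + 1) ω' * |S.D (i + 1) ω' a - S.D (i + 1) ω' b|
            = |∑ ω, S.q i ω ω' * (S.D i ω a - S.D i ω b)| := by
              have e1 : S.p (i + 1) ω' * (S.D (i + 1) ω' a - S.D (i + 1) ω' b) =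
                  ∑ ω, S.q i ω ω' * (S.D i ω a - S.D i ω b) := by
                rw [mul_sub, S.D_avg hi' ha, S.D_avg hi' hb, ← sum_sub_distrib]
                exact sum_congr rfl fun ω _ => by ring
              rw [← e1, abs_mul, abs_of_pos h0]
          _ ≤ ∑ ω, |S.q i ω ω' * (S.D i ω a - S.D i ω b)| := abs_sum_le_sum_abs _ _
          _ ≤ ∑ ω, S.q i ω ω' * |S.g i ω a - S.g i ω b| := by
              refine sum_le_sum fun ω _ => ?_
              rw [abs_mul, abs_of_nonneg (S.q_nonneg _ _ _)]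
              exact mul_le_mul_of_nonneg_left (D_lip i hi'.le ω a (S.A_sub i hi' ha) b
                (S.A_sub i hi' hb)) (S.q_nonneg _ _ _)
    have hAz : ∀ a ∈ S.A (i + 1), ∀ y ∉ S.A (i + 1),
        |S.D (i + 1) ω' a - S.D (i + 1) ω' y| ≤ |S.g (i + 1) ω' a - S.g (i + 1) ω' y| := by
      intro a ha y hy
      obtain ⟨b, hb, hD⟩ := S.D_min hi' hy ω'
      have h1 := S.D_le hy ha ω'
      have h2 := hAA a ha b hb
      have h3 := abs_sub_comm (S.g (i + 1) ω' y) (S.g (i + 1) ω' a)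
      have h4 : |S.g (i + 1) ω' a - S.g (i + 1) ω' b| ≤
          |S.g (i + 1) ω' a - S.g (i + 1) ω' y| + |S.g (i + 1) ω' y - S.g (i + 1) ω' b| :=
        abs_sub_le _ _ _
      have h5 := le_abs_self (S.D (i + 1) ω' a - S.D (i + 1) ω' b)
      rw [abs_le]
      constructor <;> linarith
    rw [S.B_succ i hi'] at ha hb
    by_cases ha' : a ∈ S.A (i + 1)
    · by_cases hb' : b ∈ S.A (i + 1)
      · exact hAA a ha' b hb'
      · exact hAz a ha' b hb'
    · by_cases hb' : b ∈ S.A (i + 1)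
      · rw [abs_sub_comm, abs_sub_comm (S.g (i + 1) ω' a)]
        exact hAz b hb' a ha'
      · have e1 : a = S.z (i + 1) := (mem_insert.1 ha).resolve_right ha'
        have e2 : b = S.z (i + 1) := (mem_insert.1 hb).resolve_right hb'
        rw [e1, e2, sub_self, sub_self]

end PathEnv

end Vale.Agent.P235.H154
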