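import Mathlib

/-!
# P235, bounded treewidth into `L₁` (helper11, note 9610), section 5: the monitors (helper154)

`Mn ρ g θ v` : the least cost of a test `σ ≤ ρ` of mass `θ`, the cost being the mean of
`|g y - g v|`; the introduction of a new vertex.
-/

set_option autoImplicit false
set_option linter.unusedSectionVars false

open Finset

noncomputable section

namespace Vale.Agent.P235.H154

variable {E V : Type} [Fintype E] [Fintype V]

/-- tests of mass `θ` below `ρ` -/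
structure Adm (ρ : E → V → ℝ) (θ : ℝ) (σ : E → V → ℝ) : Prop where
  nonneg : ∀ ω y, 0 ≤ σ ω y
  le : ∀ ω y, σ ω y ≤ ρ ω y
  sum : ∑ ω, ∑ y, σ ω y = θ

/-- the cost of a test -/
def cost (g : E → V → ℝ) (v : V) (σ : E → V → ℝ) : ℝ := ∑ ω, ∑ y, σ ω y * |g ω y - g ω v|

theorem cost_nonneg (g : E → V → ℝ) (v : V) {σ : E → V → ℝ} (h : ∀ ω y, 0 ≤ σ ω y) :
    0 ≤ cost g v σ :=
  sum_nonneg fun ω _ => sum_nonneg fun y _ => mul_nonneg (h ω y) (abs_nonneg _)

/-- **the monitor** -/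
def Mn (ρ : E → V → ℝ) (g : E → V → ℝ) (θ : ℝ) (v : V) : ℝ :=
  sInf (cost g v '' {σ | Adm ρ θ σ})

theorem Mn_nonneg (ρ g : E → V → ℝ) (θ : ℝ) (v : V) : 0 ≤ Mn ρ g θ v := by
  refine Real.sInf_nonneg ?_
  rintro _ ⟨σ, hσ, rfl⟩
  exact cost_nonneg g v hσ.nonneg

theorem Mn_le {ρ : E → V → ℝ} (g : E → V → ℝ) {θ : ℝ} (v : V) {σ : E → V → ℝ} (h : Adm ρ θ σ) :
    Mn ρ g θ v ≤ cost g v σ := by
  refine csInf_le ⟨0, ?_⟩ ⟨σ, h, rfl⟩
  rintro _ ⟨σ, hσ, rfl⟩
  exact cost_nonneg g v hσ.nonneg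

theorem le_Mn {ρ : E → V → ℝ} {g : E → V → ℝ} {θ : ℝ} {v : V} {c : ℝ}
    (hne : ∃ σ, Adm ρ θ σ) (h : ∀ σ, Adm ρ θ σ → c ≤ cost g v σ) : c ≤ Mn ρ g θ v := by
  obtain ⟨σ, hσ⟩ := hne
  refine le_csInf ⟨_, σ, hσ, rfl⟩ ?_
  rintro _ ⟨σ, hσ, rfl⟩
  exact h σ hσ

/-- comparison of two monitors -/
theorem Mn_le_add {E' : Type} [Fintype E'] {ρ g : E → V → ℝ} {ρ' g' : E' → V → ℝ} {θ : ℝ}
    {v v' : V} {c : ℝ} (hne : ∃ σ, Adm ρ' θ σ)
    (h : ∀ σ', Adm ρ' θ σ' → ∃ σ, Adm ρ θ σ ∧ cost g v σ ≤ cost g' v' σ' + c) :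
    Mn ρ g θ v ≤ Mn ρ' g' θ v' + c := by
  rw [← sub_le_iff_le_add]
  refine le_Mn hne fun σ' hσ' => ?_
  obtain ⟨σ, h1, h2⟩ := h σ' hσ'
  have := Mn_le g v h1
  linarith

/-- a position law -/
structure Pos (p : E → ℝ) (A : Finset V) (ρ : E → V → ℝ) : Prop where
  nonneg : ∀ ω y, 0 ≤ ρ ω y
  sum : ∀ ω, ∑ y, ρ ω y = p ω
  supp : ∀ ω, ∀ y ∉ A, ρ ω y = 0

theorem Pos.le {p : E → ℝ} {A : Finset V} {ρ : E → V → ℝ} (h : Pos p A ρ) (ω : E) (y : V) :
    ρ ω y ≤ p ω := by
  rw [← h.sum ω]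
  exact single_le_sum (fun y _ => h.nonneg ω y) (mem_univ y)

theorem Pos.exists_adm {p : E → ℝ} {A : Finset V} {ρ : E → V → ℝ} (h : Pos p A ρ)
    (hp : ∑ ω, p ω = 1) {θ : ℝ} (h0 : 0 ≤ θ) (h1 : θ ≤ 1) : ∃ σ, Adm ρ θ σ := by
  refine ⟨fun ω y => θ * ρ ω y, fun ω y => mul_nonneg h0 (h.nonneg ω y),
    fun ω y => mul_le_of_le_one_left (h.nonneg ω y) h1, ?_⟩
  have : ∑ ω, ∑ y, θ * ρ ω y = θ * ∑ ω, ∑ y, ρ ω y := by
    rw [mul_sum]
    exact sum_congr rfl fun ω _ => (mul_sum _ _ _).symm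
  rw [this, sum_congr rfl fun ω _ => h.sum ω, hp, mul_one]

/-- the sum of the masses of a test on one environment is at most the mass -/
theorem Adm.sum_le {p : E → ℝ} {A : Finset V} {ρ : E → V → ℝ} (h : Pos p A ρ) {θ : ℝ}
    {σ : E → V → ℝ} (hσ : Adm ρ θ σ) (ω : E) : ∑ y, σ ω y ≤ p ω := by
  rw [← h.sum ω]
  exact sum_le_sum fun y _ => hσ.le ω y

theorem Adm.supp {p : E → ℝ} {A : Finset V} {ρ : E → V → ℝ} (h : Pos p A ρ) {θ : ℝ}
    {σ : E → V → ℝ} (hσ : Adm ρ θ σ) (ω : E) {y : V} (hy : y ∉ A) : σ ω y = 0 :=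
  le_antisymm ((hσ.le ω y).trans (h.supp ω y hy).le) (hσ.nonneg ω y)

/-- the thresholds -/
def th (K : ℕ) : ℕ → ℝ
  | 0 => 1 / K
  | l + 1 => th K l / (4 * K)

/-- partial sums of the coefficients -/
def ss (K : ℕ) (κ : ℝ) : ℕ → ℝ
  | 0 => 0
  | l + 1 => ss K κ l + (1 + ss K κ l) * 2 / (κ * th K l)

/-- the coefficients of the monitors -/
def bb (K : ℕ) (κ : ℝ) (l : ℕ) : ℝ := (1 + ss K κ l) * 2 / (κ * th K l)

theorem ss_succ (K : ℕ) (κ : ℝ) (l : ℕ) : ss K κ (l + 1) = ss K κ l + bb K κ l := rfl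

theorem ss_eq (K : ℕ) (κ : ℝ) (l : ℕ) : ss K κ l = ∑ j ∈ range l, bb K κ j := by
  induction l with
  | zero => rfl
  | succ l ih => rw [ss_succ, sum_range_succ, ih]

theorem th_pos {K : ℕ} (hK : 0 < K) (l : ℕ) : 0 < th K l := by
  have hK' : (0 : ℝ) < K := by exact_mod_cast hK
  induction l with
  | zero => exact div_pos one_pos hK'
  | succ l ih => exact div_pos ih (by positivity)

theorem th_succ_le {K : ℕ} (hK : 0 < K) (l : ℕ) : th K (l + 1) ≤ th K l := by
  have hK' : (1 : ℝ) ≤ K := by exact_mod_cast hK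
  exact div_le_self (th_pos hK l).le (by linarith)

theorem th_anti {K : ℕ} (hK : 0 < K) {l l' : ℕ} (h : l ≤ l') : th K l' ≤ th K l :=
  antitone_nat_of_succ_le (th_succ_le hK) h

theorem th_le_one {K : ℕ} (hK : 0 < K) (l : ℕ) : th K l ≤ 1 := by
  have hK' : (1 : ℝ) ≤ K := by exact_mod_cast hK
  refine (th_anti hK (Nat.zero_le l)).trans ?_
  exact (div_le_one (by linarith)).2 hK'

theorem ss_nonneg {K : ℕ} (hK : 0 < K) {κ : ℝ} (hκ : 0 < κ) (l : ℕ) : 0 ≤ ss K κ l := by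
  induction l with
  | zero => exact le_rfl
  | succ l ih =>
    have := th_pos hK l
    rw [ss]
    positivity

theorem bb_nonneg {K : ℕ} (hK : 0 < K) {κ : ℝ} (hκ : 0 < κ) (l : ℕ) : 0 ≤ bb K κ l := by
  have := th_pos hK l
  have := ss_nonneg hK hκ l
  unfold bb
  positivity

theorem bb_mul {K : ℕ} (hK : 0 < K) {κ : ℝ} (hκ : 0 < κ) (l : ℕ) :
    bb K κ l * (κ * th K l / 2) = 1 + ss K κ l := by
  have := (th_pos hK l).ne'
  have := hκ.ne'
  unfold bb
  field_simp

/-- **selection** of a level and of a vertex -/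
theorem exists_level {K : ℕ} (hK : 0 < K) (A : Finset V) (hA : A.card < K) (M dz : V → ℝ)
    (hM : ∑ a ∈ A, M a = 1) : ∃ l < K, ∃ v ∈ A, th K l ≤ M v ∧
      ∑ a ∈ A with dz a < dz v, M a ≤ th K l / 4 := by
  classical
  by_contra hcon
  push Not at hcon
  have hK' : (0 : ℝ) < K := by exact_mod_cast hK
  have key : ∀ l, l < K → l + 1 ≤ (A.filter fun a => th K l ≤ M a).card := by
    intro l
    induction l with
    | zero =>
      intro _
      rw [zero_add, Nat.one_le_iff_ne_zero, Finset.card_ne_zero]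
      by_contra h
      rw [Finset.not_nonempty_iff_eq_empty, Finset.filter_eq_empty_iff] at h
      have h1 : ∑ a ∈ A, M a ≤ ∑ _a ∈ A, (1 : ℝ) / K := sum_le_sum fun a ha => (not_le.1 (h ha)).le
      rw [sum_const, nsmul_eq_mul, hM] at h1
      have h2 : (A.card : ℝ) < K := by exact_mod_cast hA
      have h3 : (A.card : ℝ) * (1 / K) < 1 := by
        rw [mul_one_div, div_lt_one hK']
        exact h2
      linarith
    | succ l ih =>
      intro hl
      have ih' := ih (by omega)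
      have hne : (A.filter fun a => th K l ≤ M a).Nonempty := by
        rw [← Finset.card_pos]; omega
      obtain ⟨v, hv, hmin⟩ := exists_min_image _ dz hne
      rw [mem_filter] at hv
      have h1 := hcon l (by omega) v hv.1 hv.2
      obtain ⟨a, ha, hMa⟩ : ∃ a ∈ A.filter (fun a => dz a < dz v), th K (l + 1) ≤ M a := by
        by_contra h
        push Not at h
        have h2 : ∑ a ∈ A with dz a < dz v, M a ≤ ∑ _a ∈ A with dz _a < dz v, th K (l + 1) :=
          sum_le_sum fun a ha => (h a ha).le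
        rw [sum_const, nsmul_eq_mul] at h2
        have h3 : ((A.filter fun a => dz a < dz v).card : ℝ) ≤ K := by
          exact_mod_cast (card_filter_le _ _).trans hA.le
        have h4 : ((A.filter fun a => dz a < dz v).card : ℝ) * th K (l + 1) ≤
            K * th K (l + 1) := mul_le_mul_of_nonneg_right h3 (th_pos hK _).le
        have h5 : (K : ℝ) * th K (l + 1) = th K l / 4 := by
          rw [th]
          field_simp
        linarith
      rw [mem_filter] at ha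
      have hsub : insert a (A.filter fun a => th K l ≤ M a) ⊆
          A.filter fun a => th K (l + 1) ≤ M a := by
        intro b hb
        rcases mem_insert.1 hb with rfl | hb
        · exact mem_filter.2 ⟨ha.1, hMa⟩
        · rw [mem_filter] at hb ⊢
          exact ⟨hb.1, (th_succ_le hK l).trans hb.2⟩
      have hnot : a ∉ A.filter fun a => th K l ≤ M a := by
        intro h
        exact absurd (hmin a h) (not_le.2 ha.2)
      have h6 := card_le_card hsub
      rw [card_insert_of_notMem hnot] at h6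
      omega
  have h1 := key (K - 1) (by omega)
  have h2 := card_filter_le A (fun a => th K (K - 1) ≤ M a)
  omega

/-- the weighted sum of the monitors -/
def GG (K : ℕ) (κ : ℝ) (ρ g : E → V → ℝ) (v : V) : ℝ :=
  ∑ l ∈ range K, bb K κ l * Mn ρ g (th K l) v

theorem GG_nonneg {K : ℕ} (hK : 0 < K) {κ : ℝ} (hκ : 0 < κ) (ρ g : E → V → ℝ) (v : V) :
    0 ≤ GG K κ ρ g v :=
  sum_nonneg fun l _ => mul_nonneg (bb_nonneg hK hκ l) (Mn_nonneg _ _ _ _)

variable [DecidableEq V]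

/-- the monitor vanishes at a vertex of large mass -/
theorem Mn_eq_zero {ρ : E → V → ℝ} (hρ : ∀ ω y, 0 ≤ ρ ω y) (g : E → V → ℝ) {θ : ℝ} (hθ : 0 < θ)
    {v : V} (hv : θ ≤ ∑ ω, ρ ω v) : Mn ρ g θ v = 0 := by
  have hM : 0 < ∑ ω, ρ ω v := hθ.trans_le hv
  refine le_antisymm ?_ (Mn_nonneg _ _ _ _)
  have h1 : Adm ρ θ (fun ω y => if y = v then ρ ω v * (θ / ∑ ω, ρ ω v) else 0) := by
    refine ⟨fun ω y => ?_, fun ω y => ?_, ?_⟩
    · split_ifs
      · exact mul_nonneg (hρ _ _) (by positivity)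
      · exact le_rfl
    · split_ifs with h
      · rw [h]
        exact mul_le_of_le_one_right (hρ _ _) ((div_le_one hM).2 hv)
      · exact hρ _ _
    · simp only [sum_ite_eq', mem_univ, if_true]
      rw [← sum_mul]
      field_simp
  refine (Mn_le g v h1).trans (le_of_eq ?_)
  unfold cost
  refine sum_eq_zero fun ω _ => sum_eq_zero fun y _ => ?_
  dsimp only
  split_ifs with h
  · rw [h, sub_self, abs_zero, mul_zero]
  · rw [zero_mul]

/-- **the introduction of a new vertex** -/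
theorem intro_step {K : ℕ} (hK : 0 < K) {κ η₀ : ℝ} (hκ : 0 < κ) (hη : 0 ≤ η₀)
    (hη₀ : K * η₀ ≤ th K (K - 1) / 8) {p : E → ℝ} (hp : ∑ ω, p ω = 1) {A : Finset V}
    (hA : A.card < K) {ρ : E → V → ℝ} (hρ : Pos p A ρ) (g : E → V → ℝ) (z : V) (d : V → ℝ)
    (hd0 : ∀ a ∈ A, 0 ≤ d a) (hd : ∀ a ∈ A, ∑ ω, p ω * |g ω z - g ω a| ≤ d a)
    (hac : ∀ a ∈ A, ∑ ω, p ω * (if |g ω z - g ω a| < κ * d a then 1 else 0) ≤ η₀) :
    ∃ v ∈ A, GG K κ ρ g v + d v ≤ GG K κ ρ g z := by
  have hp0 : ∀ ω, 0 ≤ p ω := fun ω => by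
    rw [← hρ.sum ω]; exact sum_nonneg fun y _ => hρ.nonneg ω y
  set M : V → ℝ := fun a => ∑ ω, ρ ω a with hM
  have hM1 : ∑ a ∈ A, M a = 1 := by
    have h1 : ∑ a ∈ A, M a = ∑ a, M a := by
      refine sum_subset (subset_univ A) fun a _ ha => ?_
      exact sum_eq_zero fun ω _ => hρ.supp ω a ha
    rw [h1, hM, sum_comm, sum_congr rfl fun ω _ => hρ.sum ω, hp]
  obtain ⟨l, hl, v, hvA, hMv, hsel⟩ := exists_level hK A hA M d hM1
  refine ⟨v, hvA, ?_⟩
  have hδ := hd0 v hvA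
  -- (I2)
  have I2 : ∀ θ : ℝ, 0 ≤ θ → θ ≤ 1 → Mn ρ g θ v ≤ Mn ρ g θ z + d v := by
    intro θ h0 h1
    refine Mn_le_add (hρ.exists_adm hp h0 h1) fun σ hσ => ⟨σ, hσ, ?_⟩
    have h2 : cost g v σ ≤ ∑ ω, ∑ y, (σ ω y * |g ω y - g ω z| + σ ω y * |g ω z - g ω v|) := by
      refine sum_le_sum fun ω _ => sum_le_sum fun y _ => ?_
      rw [← mul_add]
      exact mul_le_mul_of_nonneg_left (abs_sub_le _ _ _) (hσ.nonneg ω y)
    have h3 : ∑ ω, ∑ y, (σ ω y * |g ω y - g ω z| + σ ω y * |g ω z - g ω v|) =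
        cost g z σ + ∑ ω, (∑ y, σ ω y) * |g ω z - g ω v| := by
      unfold cost
      rw [← sum_add_distrib]
      refine sum_congr rfl fun ω _ => ?_
      rw [sum_add_distrib, sum_mul]
    have h4 : ∑ ω, (∑ y, σ ω y) * |g ω z - g ω v| ≤ ∑ ω, p ω * |g ω z - g ω v| :=
      sum_le_sum fun ω _ => mul_le_mul_of_nonneg_right (hσ.sum_le hρ ω) (abs_nonneg _)
    have h5 := hd v hvA
    linarith
  -- (I3)
  have I3 : κ * d v * (th K l / 2) ≤ Mn ρ g (th K l) z := by
    refine le_Mn (hρ.exists_adm hp (th_pos hK l).le (th_le_one hK l)) fun σ hσ => ?_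
    have h1 : ∀ ω y, κ * d v * (σ ω y - (if d y < d v then σ ω y else 0) -
        σ ω y * (if |g ω z - g ω y| < κ * d y then 1 else 0)) ≤ σ ω y * |g ω y - g ω z| := by
      intro ω y
      have hs := hσ.nonneg ω y
      have hab := abs_nonneg (g ω y - g ω z)
      have hκd : 0 ≤ κ * d v := mul_nonneg hκ.le hδ
      by_cases hy : y ∈ A
      · by_cases h2 : d y < d v
        · rw [if_pos h2, sub_self, zero_sub]
          have h3 : 0 ≤ σ ω y * (if |g ω z - g ω y| < κ * d y then 1 else 0) := by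
            split_ifs <;> simp [hs]
          have h4 : 0 ≤ σ ω y * |g ω y - g ω z| := mul_nonneg hs hab
          nlinarith
        · rw [if_neg h2, sub_zero]
          by_cases h3 : |g ω z - g ω y| < κ * d y
          · rw [if_pos h3, mul_one, sub_self, mul_zero]
            exact mul_nonneg hs hab
          · rw [if_neg h3, mul_zero, sub_zero]
            have h4 : κ * d v ≤ |g ω y - g ω z| := by
              rw [abs_sub_comm]
              exact (mul_le_mul_of_nonneg_left (not_lt.1 h2) hκ.le).trans (not_lt.1 h3)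
            nlinarith
      · rw [hσ.supp hρ ω hy]
        simp
    have h2 : ∑ ω, ∑ y, κ * d v * (σ ω y - (if d y < d v then σ ω y else 0) -
        σ ω y * (if |g ω z - g ω y| < κ * d y then 1 else 0)) ≤ cost g z σ :=
      sum_le_sum fun ω _ => sum_le_sum fun y _ => h1 ω y
    refine le_trans ?_ h2
    have h3 : ∑ ω, ∑ y, κ * d v * (σ ω y - (if d y < d v then σ ω y else 0) -
        σ ω y * (if |g ω z - g ω y| < κ * d y then 1 else 0)) =
        κ * d v * (∑ ω, ∑ y, σ ω y - ∑ ω, ∑ y, (if d y < d v then σ ω y else 0) -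
          ∑ ω, ∑ y, σ ω y * (if |g ω z - g ω y| < κ * d y then 1 else 0)) := by
      rw [← sum_sub_distrib, ← sum_sub_distrib, mul_sum]
      refine sum_congr rfl fun ω _ => ?_
      rw [← sum_sub_distrib, ← sum_sub_distrib, mul_sum]
    rw [h3, hσ.sum]
    -- the near vertices
    have h4 : ∑ ω, ∑ y, (if d y < d v then σ ω y else 0) ≤ th K l / 4 := by
      refine le_trans ?_ hsel
      rw [sum_comm, sum_filter]
      have e1 : ∑ a ∈ A, (if d a < d v then M a else 0) = ∑ a, (if a ∈ A then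
          (if d a < d v then M a else 0) else 0) := by
        rw [sum_ite_mem, univ_inter]
      rw [e1]
      refine sum_le_sum fun y _ => ?_
      by_cases hy : y ∈ A
      · rw [if_pos hy]
        split_ifs
        · exact sum_le_sum fun ω _ => hσ.le ω y
        · simp
      · rw [if_neg hy]
        refine le_of_eq (sum_eq_zero fun ω _ => ?_)
        rw [hσ.supp hρ ω hy, ite_self]
    -- the bad events
    have h5 : ∑ ω, ∑ y, σ ω y * (if |g ω z - g ω y| < κ * d y then 1 else 0) ≤ th K l / 8 := by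
      have e1 : ∑ ω, ∑ y, σ ω y * (if |g ω z - g ω y| < κ * d y then 1 else 0) ≤
          ∑ _y ∈ A, η₀ := by
        rw [sum_comm]
        have e2 : ∑ y, ∑ ω, σ ω y * (if |g ω z - g ω y| < κ * d y then (1 : ℝ) else 0) =
            ∑ y ∈ A, ∑ ω, σ ω y * (if |g ω z - g ω y| < κ * d y then (1 : ℝ) else 0) := by
          refine (sum_subset (subset_univ A) fun y _ hy => ?_).symm
          exact sum_eq_zero fun ω _ => by rw [hσ.supp hρ ω hy, zero_mul]
        rw [e2]
        refine sum_le_sum fun y hy => (sum_le_sum fun ω _ => ?_).trans (hac y hy)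
        refine mul_le_mul_of_nonneg_right ?_ (by split_ifs <;> simp)
        exact (hσ.le ω y).trans (hρ.le ω y)
      rw [sum_const, nsmul_eq_mul] at e1
      have h6 : (A.card : ℝ) ≤ K := by exact_mod_cast hA.le
      have h7 : (A.card : ℝ) * η₀ ≤ K * η₀ := mul_le_mul_of_nonneg_right h6 hη
      have h8 : th K (K - 1) ≤ th K l := th_anti hK (by omega)
      linarith
    have h6 := th_pos hK l
    refine mul_le_mul_of_nonneg_left ?_ (mul_nonneg hκ.le hδ)
    linarith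
  -- conclusion
  have I1 : ∀ j, l ≤ j → Mn ρ g (th K j) v = 0 := fun j hj =>
    Mn_eq_zero hρ.nonneg g (th_pos hK j) ((th_anti hK hj).trans hMv)
  have hGv : GG K κ ρ g v = ∑ j ∈ range l, bb K κ j * Mn ρ g (th K j) v := by
    unfold GG
    refine (sum_subset (range_subset_range.2 hl.le) fun j _ hj => ?_).symm
    rw [I1 j (not_lt.1 fun h => hj (mem_range.2 h)), mul_zero]
  have hGz : ∑ j ∈ range (l + 1), bb K κ j * Mn ρ g (th K j) z ≤ GG K κ ρ g z := by
    unfold GG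
    exact sum_le_sum_of_subset_of_nonneg (range_subset_range.2 hl) fun j _ _ =>
      mul_nonneg (bb_nonneg hK hκ j) (Mn_nonneg _ _ _ _)
  refine le_trans ?_ hGz
  rw [hGv, sum_range_succ]
  have h1 : ∑ j ∈ range l, bb K κ j * Mn ρ g (th K j) v ≤
      ∑ j ∈ range l, (bb K κ j * Mn ρ g (th K j) z + bb K κ j * d v) := by
    refine sum_le_sum fun j _ => ?_
    rw [← mul_add]
    exact mul_le_mul_of_nonneg_left (I2 _ (th_pos hK j).le (th_le_one hK j)) (bb_nonneg hK hκ j)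
  rw [sum_add_distrib, ← sum_mul, ← ss_eq] at h1
  have h2 : (1 + ss K κ l) * d v ≤ bb K κ l * Mn ρ g (th K l) z := by
    rw [← bb_mul hK hκ l]
    refine le_trans (le_of_eq ?_) (mul_le_mul_of_nonneg_left I3 (bb_nonneg hK hκ l))
    ring
  linarith

end Vale.Agent.P235.H154
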