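import Vale.Agent.P235.H154.PathEnv
import Vale.Agent.P235.H154.Monitor

/-!
# P235, bounded treewidth into `L₁` (helper11, note 9610), section 5: CLAIM F (helper154)
-/

set_option autoImplicit false
set_option linter.unusedSectionVars false

open Finset

noncomputable section

namespace Vale.Agent.P235.H154

namespace PathEnv

variable {V : Type} [DecidableEq V] [Fintype V] (S : PathEnv V)

/-- the backward step of a weight -/
def pull (i : ℕ) (σ : S.E (i + 1) → V → ℝ) (ω : S.E i) (y : V) : ℝ :=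
  ∑ ω', S.q i ω ω' / S.p (i + 1) ω' * σ ω' y

theorem pull_nonneg {i : ℕ} {σ : S.E (i + 1) → V → ℝ} (h : ∀ ω y, 0 ≤ σ ω y) (ω : S.E i) (y : V) :
    0 ≤ S.pull i σ ω y :=
  sum_nonneg fun ω' _ => mul_nonneg (div_nonneg (S.q_nonneg _ _ _) (S.p_nonneg _ _)) (h ω' y)

theorem pull_mono {i : ℕ} {σ σ' : S.E (i + 1) → V → ℝ} (h : ∀ ω y, σ ω y ≤ σ' ω y) (ω : S.E i)
    (y : V) : S.pull i σ ω y ≤ S.pull i σ' ω y :=
  sum_le_sum fun ω' _ => mul_le_mul_of_nonneg_left (h ω' y)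
    (div_nonneg (S.q_nonneg _ _ _) (S.p_nonneg _ _))

/-- integration of a function against the backward step -/
theorem sum_pull {i : ℕ} (σ : S.E (i + 1) → V → ℝ) (f : S.E i → V → ℝ) :
    ∑ ω, ∑ y, S.pull i σ ω y * f ω y = ∑ ω', ∑ y, σ ω' y * S.av i (fun ω => f ω y) ω' := by
  have h1 : ∀ ω, ∑ y, S.pull i σ ω y * f ω y =
      ∑ ω', ∑ y, S.q i ω ω' / S.p (i + 1) ω' * σ ω' y * f ω y := by
    intro ω
    unfold pull
    rw [sum_comm]
    exact sum_congr rfl fun y _ => sum_mul _ _ _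
  rw [sum_congr rfl fun ω _ => h1 ω, sum_comm]
  refine sum_congr rfl fun ω' _ => ?_
  rw [sum_comm]
  refine sum_congr rfl fun y _ => ?_
  unfold av
  rw [sum_div, mul_sum]
  refine sum_congr rfl fun ω _ => ?_
  ring

theorem av_one {i : ℕ} (hi : i < S.n) {ω' : S.E (i + 1)} (h : S.p (i + 1) ω' ≠ 0) :
    S.av i (fun _ => 1) ω' = 1 := by
  unfold av
  simp only [mul_one]
  rw [S.q_right i hi, div_self h]

/-- the backward step of a position law -/
theorem pull_pos {i : ℕ} (hi : i < S.n) {ρ : S.E (i + 1) → V → ℝ}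
    (hρ : Pos (S.p (i + 1)) (S.A (i + 1)) ρ) : Pos (S.p i) (S.B i) (S.pull i ρ) := by
  refine ⟨fun ω y => S.pull_nonneg hρ.nonneg ω y, fun ω => ?_, fun ω y hy => ?_⟩
  · unfold pull
    rw [sum_comm]
    have h1 : ∀ ω', ∑ y, S.q i ω ω' / S.p (i + 1) ω' * ρ ω' y = S.q i ω ω' := by
      intro ω'
      rw [← mul_sum, hρ.sum]
      rcases eq_or_ne (S.p (i + 1) ω') 0 with h | h
      · rw [S.q_zero hi h ω, zero_div, zero_mul]
      · field_simp
    rw [sum_congr rfl fun ω' _ => h1 ω', S.q_left i hi]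
  · refine sum_eq_zero fun ω' _ => ?_
    rw [hρ.supp ω' y fun h => hy (S.A_sub i hi h), mul_zero]

/-- **the reset step** for the monitors -/
theorem Mn_reset {i : ℕ} (hi : i < S.n) {ρ : S.E (i + 1) → V → ℝ}
    (hρ : Pos (S.p (i + 1)) (S.A (i + 1)) ρ) {θ : ℝ} (h0 : 0 ≤ θ) (h1 : θ ≤ 1) {v : V}
    (hv : v ∈ S.A (i + 1)) : Mn (S.pull i ρ) (S.g i) θ v ≤ Mn ρ (S.g (i + 1)) θ v := by
  have key := Mn_le_add (ρ := S.pull i ρ) (g := S.g i) (ρ' := ρ) (g' := S.g (i + 1)) (θ := θ)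
    (v := v) (v' := v) (c := 0) (hρ.exists_adm (S.p_sum (i + 1) hi) h0 h1) fun σ hσ => by
      have hz : ∀ ω', S.p (i + 1) ω' = 0 → ∀ y, σ ω' y = 0 := fun ω' h y =>
        le_antisymm (((hσ.le ω' y).trans (hρ.le ω' y)).trans h.le) (hσ.nonneg ω' y)
      refine ⟨S.pull i σ, ⟨fun ω y => S.pull_nonneg hσ.nonneg ω y,
        fun ω y => S.pull_mono hσ.le ω y, ?_⟩, ?_⟩
      · have h2 := S.sum_pull σ (fun _ _ => 1)
        simp only [mul_one] at h2
        rw [h2, ← hσ.sum]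
        refine sum_congr rfl fun ω' _ => sum_congr rfl fun y _ => ?_
        rcases eq_or_ne (S.p (i + 1) ω') 0 with h | h
        · rw [hz ω' h y, zero_mul]
        · rw [S.av_one hi h, mul_one]
      · unfold cost
        rw [S.sum_pull σ (fun ω y => |S.g i ω y - S.g i ω v|), add_zero]
        refine le_of_eq (sum_congr rfl fun ω' _ => sum_congr rfl fun y _ => ?_)
        by_cases hy : y ∈ S.A (i + 1)
        · rcases eq_or_ne (S.p (i + 1) ω') 0 with h | h
          · rw [hz ω' h y, zero_mul, zero_mul]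
          · congr 1
            unfold av
            rw [S.av_abs hi hy hv]
            field_simp
        · rw [hσ.supp hρ ω' hy, zero_mul, zero_mul]
  linarith

/-- **CLAIM F**, all position laws -/
theorem claimF154_aux {K : ℕ} (hK : 0 < K) {κ η₀ : ℝ} (hκ : 0 < κ) (hη : 0 ≤ η₀)
    (hη₀ : K * η₀ ≤ th K (K - 1) / 8) (hA : ∀ i < S.n, (S.A (i + 1)).card < K)
    (d : V → V → ℝ) (hd0 : ∀ i < S.n, ∀ a ∈ S.A (i + 1), 0 ≤ d (S.z (i + 1)) a)
    (hd : ∀ i < S.n, ∀ a ∈ S.A (i + 1),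
      ∑ ω, S.p (i + 1) ω * |S.g (i + 1) ω (S.z (i + 1)) - S.g (i + 1) ω a| ≤ d (S.z (i + 1)) a)
    (hac : ∀ i < S.n, ∀ a ∈ S.A (i + 1), ∑ ω, S.p (i + 1) ω *
      (if |S.g (i + 1) ω (S.z (i + 1)) - S.g (i + 1) ω a| < κ * d (S.z (i + 1)) a then 1 else 0) ≤
        η₀)
    (dB : V → ℝ) (hdB : ∀ i < S.n, ∀ a ∈ S.A (i + 1),
      dB (S.z (i + 1)) ≤ d (S.z (i + 1)) a + dB a)
    (hdB0 : ∀ b ∈ S.B 0, dB b ≤ 0) : ∀ i ≤ S.n, ∀ ρ : S.E i → V → ℝ, Pos (S.p i) (S.B i) ρ →
      ∀ v ∈ S.B i, dB v ≤ GG K κ ρ (S.g i) v + ss K κ K * ∑ ω, ∑ y, ρ ω y * S.D i ω y := by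
  intro i
  induction i with
  | zero =>
    intro _ ρ _ v hv
    have h1 := GG_nonneg hK hκ ρ (S.g 0) v
    have h2 := hdB0 v hv
    have h3 : ∑ ω, ∑ y, ρ ω y * S.D 0 ω y = 0 :=
      sum_eq_zero fun ω _ => sum_eq_zero fun y _ => by rw [S.D_zero, mul_zero]
    rw [h3]
    linarith
  | succ i ih =>
    intro hi ρ hρ v hv
    have hi' : i < S.n := hi
    -- the previous position
    have hex : ∀ (ω' : S.E (i + 1)) (y : V), ∃ a, a ∈ S.A (i + 1) ∧ S.D (i + 1) ω' y =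
        S.D (i + 1) ω' a + |S.g (i + 1) ω' y - S.g (i + 1) ω' a| := by
      intro ω' y
      by_cases hy : y ∈ S.A (i + 1)
      · exact ⟨y, hy, by rw [sub_self, abs_zero, add_zero]⟩
      · obtain ⟨a, ha, h⟩ := S.D_min hi' hy ω'
        exact ⟨a, ha, h⟩
    choose nx hnA hnD using hex
    set c : ℝ := ∑ ω, ∑ y, ρ ω y * |S.g (i + 1) ω y - S.g (i + 1) ω (nx ω y)| with hc
    -- image of a weight
    set im : (S.E (i + 1) → V → ℝ) → S.E (i + 1) → V → ℝ :=
      fun σ ω a => ∑ y, if nx ω y = a then σ ω y else 0 with him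
    have him_int : ∀ (σ f : S.E (i + 1) → V → ℝ), ∑ ω, ∑ a, im σ ω a * f ω a =
        ∑ ω, ∑ y, σ ω y * f ω (nx ω y) := by
      intro σ f
      refine sum_congr rfl fun ω _ => ?_
      simp only [him, sum_mul]
      rw [sum_comm]
      refine sum_congr rfl fun y _ => ?_
      simp only [ite_mul, zero_mul, sum_ite_eq, mem_univ, if_true]
    have him_sum : ∀ (σ : S.E (i + 1) → V → ℝ) (ω : S.E (i + 1)), ∑ a, im σ ω a = ∑ y, σ ω y := by
      intro σ ω
      simp only [him]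
      rw [sum_comm]
      refine sum_congr rfl fun y _ => ?_
      simp only [sum_ite_eq, mem_univ, if_true]
    have hρ' : Pos (S.p (i + 1)) (S.A (i + 1)) (im ρ) := by
      refine ⟨fun ω a => sum_nonneg fun y _ => ?_, fun ω => ?_, fun ω a ha => ?_⟩
      · split_ifs
        · exact hρ.nonneg ω y
        · exact le_rfl
      · rw [him_sum, hρ.sum]
      · refine sum_eq_zero fun y _ => if_neg ?_
        rintro rfl
        exact ha (hnA ω y)
    -- the jump
    have hjump : ∀ θ : ℝ, 0 ≤ θ → θ ≤ 1 → ∀ w, Mn (im ρ) (S.g (i + 1)) θ w ≤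
        Mn ρ (S.g (i + 1)) θ w + c := by
      intro θ h0 h1 w
      refine Mn_le_add (hρ.exists_adm (S.p_sum (i + 1) hi) h0 h1) fun σ hσ =>
        ⟨im σ, ⟨fun ω a => sum_nonneg fun y _ => ?_, fun ω a => sum_le_sum fun y _ => ?_, ?_⟩, ?_⟩
      · split_ifs
        · exact hσ.nonneg ω y
        · exact le_rfl
      · split_ifs
        · exact hσ.le ω y
        · exact le_rfl
      · rw [sum_congr rfl fun ω _ => him_sum σ ω, hσ.sum]
      · unfold cost
        rw [him_int σ (fun ω a => |S.g (i + 1) ω a - S.g (i + 1) ω w|), hc, ← sum_add_distrib]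
        refine sum_le_sum fun ω _ => ?_
        rw [← sum_add_distrib]
        refine sum_le_sum fun y _ => ?_
        have h2 := hσ.nonneg ω y
        have h3 := hσ.le ω y
        have h4 : |S.g (i + 1) ω (nx ω y) - S.g (i + 1) ω w| ≤
            |S.g (i + 1) ω (nx ω y) - S.g (i + 1) ω y| + |S.g (i + 1) ω y - S.g (i + 1) ω w| :=
          abs_sub_le _ _ _
        rw [abs_sub_comm (S.g (i + 1) ω (nx ω y)) (S.g (i + 1) ω y)] at h4
        have h5 := mul_le_mul_of_nonneg_left h4 h2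
        have h6 := mul_le_mul_of_nonneg_right h3
          (abs_nonneg (S.g (i + 1) ω y - S.g (i + 1) ω (nx ω y)))
        linarith
    have hGjump : ∀ w, GG K κ (im ρ) (S.g (i + 1)) w ≤ GG K κ ρ (S.g (i + 1)) w +
        ss K κ K * c := by
      intro w
      unfold GG
      rw [ss_eq, sum_mul, ← sum_add_distrib]
      refine sum_le_sum fun l _ => ?_
      rw [← mul_add]
      exact mul_le_mul_of_nonneg_left (hjump _ (th_pos hK l).le (th_le_one hK l) w)
        (bb_nonneg hK hκ l)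
    -- the sum of the costs
    have hV : ∑ ω, ∑ y, S.pull i (im ρ) ω y * S.D i ω y + c =
        ∑ ω, ∑ y, ρ ω y * S.D (i + 1) ω y := by
      rw [S.sum_pull (im ρ) (fun ω y => S.D i ω y)]
      have h1 : ∑ ω', ∑ y, im ρ ω' y * S.av i (fun ω => S.D i ω y) ω' =
          ∑ ω', ∑ y, im ρ ω' y * S.D (i + 1) ω' y := by
        refine sum_congr rfl fun ω' _ => sum_congr rfl fun y _ => ?_
        by_cases hy : y ∈ S.A (i + 1)
        · rw [S.D_of_mem hy]
        · rw [hρ'.supp ω' y hy, zero_mul, zero_mul]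
      rw [h1, him_int ρ (fun ω' y => S.D (i + 1) ω' y), hc, ← sum_add_distrib]
      refine sum_congr rfl fun ω _ => ?_
      rw [← sum_add_distrib]
      refine sum_congr rfl fun y _ => ?_
      rw [hnD ω y]
      ring
    -- the adhesion
    have hIH : ∀ w ∈ S.A (i + 1), dB w ≤ GG K κ (im ρ) (S.g (i + 1)) w +
        ss K κ K * ∑ ω, ∑ y, S.pull i (im ρ) ω y * S.D i ω y := by
      intro w hw
      have h1 := ih (by omega) _ (S.pull_pos hi' hρ') w (S.A_sub i hi' hw)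
      have h2 : GG K κ (S.pull i (im ρ)) (S.g i) w ≤ GG K κ (im ρ) (S.g (i + 1)) w :=
        sum_le_sum fun l _ => mul_le_mul_of_nonneg_left
          (S.Mn_reset hi' hρ' (th_pos hK l).le (th_le_one hK l) hw) (bb_nonneg hK hκ l)
      linarith
    have hall : dB v ≤ GG K κ (im ρ) (S.g (i + 1)) v +
        ss K κ K * ∑ ω, ∑ y, S.pull i (im ρ) ω y * S.D i ω y := by
      rw [S.B_succ i hi'] at hv
      rcases mem_insert.1 hv with rfl | hv
      · obtain ⟨w, hw, h1⟩ := intro_step hK hκ hη hη₀ (S.p_sum (i + 1) hi) (hA i hi') hρ'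
          (S.g (i + 1)) (S.z (i + 1)) (fun a => d (S.z (i + 1)) a) (hd0 i hi') (hd i hi')
          (hac i hi')
        have h2 := hIH w hw
        have h3 := hdB i hi' w hw
        linarith
      · exact hIH v hv
    have h1 := hGjump v
    rw [← hV, mul_add]
    linarith

/-- **CLAIM F** : the mean of the difference at a vertex of the last bag is at least a constant
times its distance to the first bag -/
theorem claimF154 {K : ℕ} (hK : 0 < K) {κ η₀ : ℝ} (hκ : 0 < κ) (hη : 0 ≤ η₀)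
    (hη₀ : K * η₀ ≤ th K (K - 1) / 8) (hA : ∀ i < S.n, (S.A (i + 1)).card < K)
    (d : V → V → ℝ) (hd0 : ∀ i < S.n, ∀ a ∈ S.A (i + 1), 0 ≤ d (S.z (i + 1)) a)
    (hd : ∀ i < S.n, ∀ a ∈ S.A (i + 1),
      ∑ ω, S.p (i + 1) ω * |S.g (i + 1) ω (S.z (i + 1)) - S.g (i + 1) ω a| ≤ d (S.z (i + 1)) a)
    (hac : ∀ i < S.n, ∀ a ∈ S.A (i + 1), ∑ ω, S.p (i + 1) ω *
      (if |S.g (i + 1) ω (S.z (i + 1)) - S.g (i + 1) ω a| < κ * d (S.z (i + 1)) a then 1 else 0) ≤
        η₀)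
    (dB : V → ℝ) (hdB : ∀ i < S.n, ∀ a ∈ S.A (i + 1),
      dB (S.z (i + 1)) ≤ d (S.z (i + 1)) a + dB a)
    (hdB0 : ∀ b ∈ S.B 0, dB b ≤ 0) {x : V} (hx : x ∈ S.B S.n) :
    dB x ≤ ss K κ K * ∑ ω, S.p S.n ω * S.D S.n ω x := by
  have hρ : Pos (S.p S.n) (S.B S.n) (fun ω y => if y = x then S.p S.n ω else 0) := by
    refine ⟨fun ω y => ?_, fun ω => ?_, fun ω y hy => ?_⟩
    · split_ifs
      · exact S.p_nonneg _ _
      · exact le_rfl
    · simp only [sum_ite_eq', mem_univ, if_true]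
    · rw [if_neg]
      rintro rfl
      exact hy hx
  have h1 := S.claimF154_aux hK hκ hη hη₀ hA d hd0 hd hac dB hdB hdB0 S.n le_rfl _ hρ x hx
  have h2 : GG K κ (fun ω y => if y = x then S.p S.n ω else 0) (S.g S.n) x = 0 := by
    refine sum_eq_zero fun l _ => ?_
    have h3 : Mn (fun (ω : S.E S.n) y => if y = x then S.p S.n ω else 0) (S.g S.n) (th K l) x = 0 := by
      refine Mn_eq_zero hρ.nonneg _ (th_pos hK l) ?_
      simp only [if_true]
      rw [S.p_sum S.n le_rfl]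
      exact th_le_one hK l
    rw [h3, mul_zero]
  rw [h2, zero_add] at h1
  refine h1.trans (le_of_eq ?_)
  congr 1
  refine sum_congr rfl fun ω _ => ?_
  simp only [ite_mul, zero_mul, sum_ite_eq', mem_univ, if_true]

theorem C1_154_nonneg {K : ℕ} (hK : 0 < K) {κ : ℝ} (hκ : 0 < κ) : 0 ≤ ss K κ K := ss_nonneg hK hκ K

end PathEnv

end Vale.Agent.P235.H154
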