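import Vale.Agent.P235.H154.MinEdge

/-!
# The grid theorem: the crossing lemma (helper154)

Vertical paths `u i` on `[0, M i]`, horizontal paths `w h` on `[0, N h]` from `A` to `B` such that no
edge of the horizontal paths outside the vertical ones can be avoided. If many vertical paths meet
the yardstick `w h₀` and the paths of `Hs`, then `d` of them can be chosen which meet the horizontal
paths in order.
-/

set_option autoImplicit false
set_option linter.unusedSectionVars false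

open Finset

namespace Vale.Agent.P235.H154

variable {V : Type*}

/-- from reachability to a walk -/
theorem exists_walk {T : V → V → Prop} {a b : V} (h : Relation.ReflTransGen T a b) :
    ∃ (w : ℕ → V) (n : ℕ), w 0 = a ∧ w n = b ∧ ∀ j < n, T (w j) (w (j + 1)) := by
  induction h with
  | refl => exact ⟨fun _ => a, 0, rfl, rfl, fun j hj => absurd hj (Nat.not_lt_zero j)⟩
  | @tail b c _ hbc ih =>
    obtain ⟨w, n, h0, hn, hw⟩ := ih
    refine ⟨fun j => if j ≤ n then w j else c, n + 1, ?_, ?_, ?_⟩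
    · simp [h0]
    · simp
    · intro j hj
      rcases Nat.lt_succ_iff_lt_or_eq.1 hj with h | rfl
      · simp only [if_pos h.le, if_pos (Nat.succ_le_of_lt h)]
        exact hw j h
      · simp only [le_refl, if_true, Nat.not_succ_le_self, if_false]
        rw [hn]
        exact hbc

/-- a separator separates -/
theorem Sep.not_reach {R : V → V → Prop} {A B S : Finset V} (h : Sep R A B S) {a b : V}
    (ha : a ∈ A) (haS : a ∉ S) (hb : b ∈ B)
    (hab : Relation.ReflTransGen (fun x y => R x y ∧ x ∉ S ∧ y ∉ S) a b) : False := by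
  obtain ⟨w, n, h0, hn, hw⟩ := exists_walk hab
  obtain ⟨j, hj, hjS⟩ := h w n (by rw [h0]; exact ha) (by rw [hn]; exact hb)
    fun j hj => (hw j hj).1
  rcases j with _ | j
  · exact haS (by rw [← h0]; exact hjS)
  · exact (hw j (by omega)).2.2 hjS

/-- a segment of a path -/
theorem seg_reach {T : V → V → Prop} (w : ℕ → V) {a b : ℕ} (hab : a ≤ b)
    (h : ∀ j, a ≤ j → j < b → T (w j) (w (j + 1))) : Relation.ReflTransGen T (w a) (w b) := by
  induction b, hab using Nat.le_induction with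
  | base => exact Relation.ReflTransGen.refl
  | succ b hb ih =>
    exact (ih fun j hj hjb => h j hj (by omega)).tail (h b hb (Nat.lt_succ_self b))

/-- a segment of a path, both directions -/
theorem seg_reach' {T : V → V → Prop} (hT : ∀ x y, T x y → T y x) (w : ℕ → V) {a b c : ℕ}
    (ha : a ≤ c) (hb : b ≤ c) (h : ∀ j, j < c → T (w j) (w (j + 1))) :
    Relation.ReflTransGen T (w a) (w b) := by
  rcases le_total a b with hab | hab
  · exact seg_reach w hab fun j _ hj => h j (by omega)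
  · have h1 : Relation.ReflTransGen T (w b) (w a) := seg_reach w hab fun j _ hj => h j (by omega)
    have h2 : ∀ {x y : V}, Relation.ReflTransGen T x y → Relation.ReflTransGen T y x := by
      intro x y hxy
      induction hxy with
      | refl => exact Relation.ReflTransGen.refl
      | tail _ hbc ih => exact Relation.ReflTransGen.head (hT _ _ hbc) ih
    exact h2 h1

variable [Fintype V] [DecidableEq V]

section

variable {K κ : ℕ} {u : Fin K → ℕ → V} {M : Fin K → ℕ} {w : Fin κ → ℕ → V} {N : Fin κ → ℕ}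
  {A B : Finset V}

/-- **the separator of a new edge** of the yardstick -/
theorem exists_cut_sep (hw : Link (Ed w N) A B w N) (h₀ : Fin κ) {j₀ : ℕ} (hj₀ : j₀ < N h₀)
    (hv : ¬ ∃ (v : Fin κ → ℕ → V) (L : Fin κ → ℕ),
      Link (fun a b => (Ed u M a b ∨ Ed w N a b) ∧ s(a, b) ≠ s(w h₀ j₀, w h₀ (j₀ + 1))) A B v L) :
    ∃ (S : Finset V) (jj : Fin κ → ℕ), S.card < κ ∧
      Sep (fun a b => (Ed u M a b ∨ Ed w N a b) ∧ s(a, b) ≠ s(w h₀ j₀, w h₀ (j₀ + 1))) A B S ∧
      (∀ h ≠ h₀, jj h ≤ N h ∧ w h (jj h) ∈ S) ∧ ∀ s ∈ S, ∃ h ≠ h₀, s = w h (jj h) := by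
  classical
  rcases menger (fun a b => (Ed u M a b ∨ Ed w N a b) ∧ s(a, b) ≠ s(w h₀ j₀, w h₀ (j₀ + 1)))
    A B κ with h | ⟨S, hSc, hS⟩
  · exact absurd h hv
  have h1 : ∀ h, ∃ j, h ≠ h₀ → j ≤ N h ∧ w h j ∈ S := by
    intro h
    by_cases hh : h = h₀
    · exact ⟨0, fun h' => absurd hh h'⟩
    · obtain ⟨j, hj, hjS⟩ := hS (w h) (N h) (hw.start h) (hw.stop h) fun j hj => by
        refine ⟨Or.inr (Ed.mk' w N h hj), fun he => ?_⟩
        rw [Sym2.eq_iff] at he
        rcases he with ⟨he, _⟩ | ⟨he, _⟩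
        · exact hh (hw.inj h j h₀ j₀ hj.le hj₀.le he).1
        · exact hh (hw.inj h j h₀ (j₀ + 1) hj.le hj₀ he).1
      exact ⟨j, fun _ => ⟨hj, hjS⟩⟩
  choose jj hjj using h1
  refine ⟨S, jj, hSc, hS, hjj, ?_⟩
  -- the image of the other paths is the whole separator
  set I : Finset V := (univ.erase h₀).image fun h => w h (jj h) with hI
  have hIS : I ⊆ S := by
    intro x hx
    obtain ⟨h, hh, rfl⟩ := mem_image.1 hx
    exact (hjj h (mem_erase.1 hh).1).2
  have hIc : I.card = κ - 1 := by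
    rw [hI, card_image_of_injOn, card_erase_of_mem (mem_univ _), card_univ, Fintype.card_fin]
    intro h hh h' hh' he
    have e1 := (mem_erase.1 (Finset.mem_coe.1 hh)).1
    have e2 := (mem_erase.1 (Finset.mem_coe.1 hh')).1
    exact (hw.inj h _ h' _ (hjj h e1).1 (hjj h' e2).1 he).1
  have hIeq : I = S := eq_of_subset_of_card_le hIS (by omega)
  intro s hs
  rw [← hIeq] at hs
  obtain ⟨h, hh, rfl⟩ := mem_image.1 hs
  exact ⟨h, (mem_erase.1 hh).1, rfl⟩

/-- one cut of the yardstick: position `β`, the edge from `β - 1` to `β` is new -/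
structure Cut (u : Fin K → ℕ → V) (M : Fin K → ℕ) (w : Fin κ → ℕ → V) (N : Fin κ → ℕ)
    (A B : Finset V) (h₀ : Fin κ) (β : ℕ) (S : Finset V) (jj : Fin κ → ℕ) : Prop where
  pos : 0 < β
  le : β ≤ N h₀
  new : ¬ Ed u M (w h₀ (β - 1)) (w h₀ β)
  sep : Sep (fun a b => (Ed u M a b ∨ Ed w N a b) ∧ s(a, b) ≠ s(w h₀ (β - 1), w h₀ β)) A B S
  mem : ∀ h ≠ h₀, jj h ≤ N h ∧ w h (jj h) ∈ S
  eq : ∀ s ∈ S, ∃ h ≠ h₀, s = w h (jj h)

theorem Cut.not_reach {h₀ : Fin κ} {β : ℕ} {S : Finset V} {jj : Fin κ → ℕ}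
    (hc : Cut u M w N A B h₀ β S jj) (hw : Link (Ed w N) A B w N)
    {h h' : Fin κ} {i : Fin K} (hiS : ∀ m ≤ M i, u i m ∉ S) {j j' m m' : ℕ}
    (hj : j ≤ N h) (hj' : j' ≤ N h') (hm : m ≤ M i) (hm' : m' ≤ M i)
    (e : u i m = w h j) (e' : u i m' = w h' j')
    (hh : (h = h₀ ∧ j < β) ∨ (h ≠ h₀ ∧ j < jj h))
    (hh' : (h' = h₀ ∧ β ≤ j') ∨ (h' ≠ h₀ ∧ jj h' < j')) : False := by
  set T : V → V → Prop := fun x y => ((Ed u M x y ∨ Ed w N x y) ∧
    s(x, y) ≠ s(w h₀ (β - 1), w h₀ β)) ∧ x ∉ S ∧ y ∉ S with hT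
  have hTs : ∀ x y, T x y → T y x := fun x y h =>
    ⟨⟨h.1.1.imp Ed.symm Ed.symm, by rw [Sym2.eq_swap]; exact h.1.2⟩, h.2.2, h.2.1⟩
  have hβ := hc.pos
  have hβN := hc.le
  -- vertices of the horizontal paths outside the separator
  have hQ : ∀ l ≤ N h₀, w h₀ l ∉ S := by
    intro l hl hlS
    obtain ⟨g, hg, he⟩ := hc.eq _ hlS
    exact hg (hw.inj h₀ l g (jj g) hl (hc.mem g hg).1 he).1.symm
  have hP : ∀ g ≠ h₀, ∀ l ≤ N g, l ≠ jj g → w g l ∉ S := by
    intro g hg l hl hne hlS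
    obtain ⟨g', hg', he⟩ := hc.eq _ hlS
    obtain ⟨rfl, h2⟩ := hw.inj g l g' (jj g') hl (hc.mem g' hg').1 he
    exact hne h2
  -- edges of the horizontal paths
  have hQe : ∀ l < N h₀, l ≠ β - 1 → T (w h₀ l) (w h₀ (l + 1)) := by
    intro l hl hne
    refine ⟨⟨Or.inr (Ed.mk' w N h₀ hl), fun he => ?_⟩, hQ l hl.le, hQ (l + 1) hl⟩
    rw [Sym2.eq_iff] at he
    rcases he with ⟨he, _⟩ | ⟨he, he'⟩
    · exact hne (hw.inj h₀ l h₀ (β - 1) hl.le (by omega) he).2
    · have h1 := (hw.inj h₀ l h₀ β hl.le hβN he).2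
      have h2 := (hw.inj h₀ (l + 1) h₀ (β - 1) hl (by omega) he').2
      omega
  have hPe : ∀ g ≠ h₀, ∀ l < N g, l ≠ jj g → l + 1 ≠ jj g → T (w g l) (w g (l + 1)) := by
    intro g hg l hl hne hne'
    refine ⟨⟨Or.inr (Ed.mk' w N g hl), fun he => ?_⟩, hP g hg l hl.le hne, hP g hg _ hl hne'⟩
    rw [Sym2.eq_iff] at he
    rcases he with ⟨he, _⟩ | ⟨he, _⟩
    · exact hg (hw.inj g l h₀ (β - 1) hl.le (by omega) he).1
    · exact hg (hw.inj g l h₀ β hl.le hβN he).1
  -- edges of the vertical path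
  have hUe : ∀ l < M i, T (u i l) (u i (l + 1)) := by
    intro l hl
    refine ⟨⟨Or.inl (Ed.mk' u M i hl), fun he => ?_⟩, hiS l hl.le, hiS (l + 1) hl⟩
    rw [Sym2.eq_iff] at he
    apply hc.new
    rcases he with ⟨he, he'⟩ | ⟨he, he'⟩
    · rw [← he, ← he']; exact Ed.mk' u M i hl
    · rw [← he, ← he']; exact (Ed.mk' u M i hl).symm
  -- the three segments
  have r1 : Relation.ReflTransGen T (w h 0) (w h j) := by
    refine seg_reach (w h) (Nat.zero_le j) fun l _ hl => ?_
    rcases hh with ⟨rfl, hjβ⟩ | ⟨hne, hjj⟩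
    · exact hQe l (by omega) (by omega)
    · exact hPe h hne l (by omega) (by omega) (by omega)
  have r2 : Relation.ReflTransGen T (u i m) (u i m') :=
    seg_reach' hTs (u i) hm hm' hUe
  have r3 : Relation.ReflTransGen T (w h' j') (w h' (N h')) := by
    refine seg_reach (w h') hj' fun l hl hl' => ?_
    rcases hh' with ⟨rfl, hjβ⟩ | ⟨hne, hjj⟩
    · exact hQe l hl' (by omega)
    · exact hPe h' hne l hl' (by omega) (by omega)
  have h0S : w h 0 ∉ S := by
    rcases hh with ⟨rfl, _⟩ | ⟨hne, hjj⟩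
    · exact hQ 0 (Nat.zero_le _)
    · exact hP h hne 0 (Nat.zero_le _) (by omega)
  rw [e, e'] at r2
  exact hc.sep.not_reach (hw.start h) h0S (hw.stop h') (r1.trans (r2.trans r3))

end

/-- **THE CROSSING LEMMA** -/
theorem crossing {K κ d : ℕ} (hd : 0 < d) (u : Fin K → ℕ → V) (M : Fin K → ℕ)
    (w : Fin κ → ℕ → V) (N : Fin κ → ℕ) {A B : Finset V}
    (hu : ∀ i j i' j', j ≤ M i → j' ≤ M i' → u i j = u i' j' → i = i' ∧ j = j')
    (hw : Link (Ed w N) A B w N)
    (hv : ∀ h, ∀ j < N h, ¬ Ed u M (w h j) (w h (j + 1)) →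
      ¬ ∃ (v : Fin κ → ℕ → V) (L : Fin κ → ℕ),
        Link (fun a b => (Ed u M a b ∨ Ed w N a b) ∧ s(a, b) ≠ s(w h j, w h (j + 1))) A B v L)
    (Vs : Finset (Fin K)) (hV : d * d * κ ≤ Vs.card) (h₀ : Fin κ) (Hs : Finset (Fin κ))
    (hh₀ : h₀ ∉ Hs) (meet : ∀ i ∈ Vs, ∀ h ∈ insert h₀ Hs, ∃ m ≤ M i, ∃ j ≤ N h, u i m = w h j) :
    ∃ (Vn : Fin d → Fin K) (x : Fin κ → ℕ → ℕ), Function.Injective Vn ∧ (∀ n, Vn n ∈ Vs) ∧
      ∀ h ∈ Hs, x h 0 = 0 ∧ x h d = N h + 1 ∧ (∀ n < d, x h n < x h (n + 1)) ∧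
        ∀ n : Fin d, ∀ m ≤ M (Vn n), ∀ j ≤ N h, u (Vn n) m = w h j →
          x h n ≤ j ∧ j < x h (n + 1) := by
  classical
  have hκ : 0 < κ := Fin.pos h₀
  -- vertical paths met before a position
  set F : ℕ → Finset (Fin K) := fun β => Vs.filter fun i => ∃ j < β, j ≤ N h₀ ∧
    ∃ m ≤ M i, u i m = w h₀ j with hF
  have hF0 : (F 0).card = 0 := by
    rw [card_eq_zero, hF, filter_eq_empty_iff]
    rintro i _ ⟨j, hj, _⟩
    exact absurd hj (Nat.not_lt_zero j)
  have hFmono : ∀ β β', β ≤ β' → F β ⊆ F β' := by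
    intro β β' h i hi
    rw [hF, mem_filter] at hi ⊢
    obtain ⟨h1, j, hj, h2⟩ := hi
    exact ⟨h1, j, by omega, h2⟩
  have hFend : F (N h₀ + 1) = Vs := by
    rw [hF, filter_eq_self]
    intro i hi
    obtain ⟨m, hm, j, hj, he⟩ := meet i hi h₀ (mem_insert_self _ _)
    exact ⟨j, by omega, hj, m, hm, he⟩
  -- a step adds at most one path
  have hFstep : ∀ β, (F (β + 1)).card ≤ (F β).card + 1 := by
    intro β
    have h1 : (F (β + 1) \ F β).card ≤ 1 := by
      rw [card_le_one]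
      intro i hi i' hi'
      rw [mem_sdiff, hF, mem_filter, mem_filter] at hi hi'
      obtain ⟨⟨hiV, j, hj, hjN, m, hm, he⟩, hi2⟩ := hi
      obtain ⟨⟨hiV', j', hj', hjN', m', hm', he'⟩, hi2'⟩ := hi'
      have e1 : j = β := by
        by_contra hne
        exact hi2 ⟨hiV, j, by omega, hjN, m, hm, he⟩
      have e2 : j' = β := by
        by_contra hne
        exact hi2' ⟨hiV', j', by omega, hjN', m', hm', he'⟩
      subst e1; subst e2
      exact (hu i m i' m' hm hm' (he.trans he'.symm)).1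
    have h2 := card_sdiff_add_card_eq_card (hFmono β (β + 1) (Nat.le_succ β))
    omega
  -- a step along a vertical edge adds nothing
  have hFold : ∀ β, 0 < β → β ≤ N h₀ → Ed u M (w h₀ (β - 1)) (w h₀ β) → F (β + 1) ⊆ F β := by
    intro β h0 hβN hE i hi
    rw [hF, mem_filter] at hi ⊢
    obtain ⟨hiV, j, hj, hjN, m, hm, he⟩ := hi
    refine ⟨hiV, ?_⟩
    rcases Nat.lt_succ_iff_lt_or_eq.1 hj with hj | rfl
    · exact ⟨j, hj, hjN, m, hm, he⟩
    · obtain ⟨i', l, hl, ⟨h1, h2⟩ | ⟨h1, h2⟩⟩ := hE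
      · have h3 := (hu i m i' (l + 1) hm hl (he.trans h2)).1
        subst h3
        exact ⟨j - 1, by omega, by omega, l, hl.le, h1.symm⟩
      · have h3 := (hu i m i' l hm hl.le (he.trans h1)).1
        subst h3
        exact ⟨j - 1, by omega, by omega, l + 1, hl, h2.symm⟩
  -- cut positions
  have hcut : ∀ c, 1 ≤ c → c < Vs.card → ∃ β, 0 < β ∧ β ≤ N h₀ ∧ (F β).card = c ∧
      ¬ Ed u M (w h₀ (β - 1)) (w h₀ β) := by
    intro c hc hcV
    have hex : ∃ t, c < (F t).card := ⟨N h₀ + 1, by rw [hFend]; exact hcV⟩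
    set t := Nat.find hex with ht
    have ht1 : c < (F t).card := Nat.find_spec hex
    have htle : t ≤ N h₀ + 1 := Nat.find_min' hex (by rw [hFend]; exact hcV)
    have ht0 : t ≠ 0 := by
      intro h
      rw [h, hF0] at ht1
      omega
    obtain ⟨s, hs⟩ : ∃ s, t = s + 1 := ⟨t - 1, by omega⟩
    have hs1 : (F s).card ≤ c := by
      by_contra h
      exact Nat.find_min hex (m := s) (by omega) (by omega)
    have hs2 := hFstep s
    rw [← hs] at hs2
    have hs0 : s ≠ 0 := by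
      intro h
      rw [h, hF0] at hs2
      omega
    refine ⟨s, by omega, by omega, by omega, fun hE => ?_⟩
    have h1 := card_le_card (hFold s (by omega) (by omega) hE)
    rw [← hs] at h1
    omega
  -- the data of the cuts
  have hdata : ∀ n : ℕ, ∃ (β : ℕ) (S : Finset V) (jj : Fin κ → ℕ), (n = 0 → β = 0) ∧
      (d ≤ n → β = N h₀ + 1) ∧ (0 < n → n < d → Cut u M w N A B h₀ β S jj ∧ S.card < κ ∧
        (F β).card = n * (d * κ)) := by
    intro n
    rcases Nat.eq_zero_or_pos n with rfl | hn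
    · exact ⟨0, ∅, fun _ => 0, fun _ => rfl, fun h => absurd h (by omega),
        fun h => absurd h (lt_irrefl _)⟩
    · rcases le_or_gt d n with hdn | hdn
      · exact ⟨N h₀ + 1, ∅, fun _ => 0, fun h => absurd h (by omega), fun _ => rfl,
          fun _ h => absurd h (by omega)⟩
      · have h1 : 1 ≤ n * (d * κ) := Nat.mul_pos hn (Nat.mul_pos hd hκ)
        have h2 : n * (d * κ) < Vs.card := by
          have : n * (d * κ) < d * (d * κ) := Nat.mul_lt_mul_of_pos_right hdn (Nat.mul_pos hd hκ)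
          have e : d * d * κ = d * (d * κ) := Nat.mul_assoc _ _ _
          omega
        obtain ⟨β, hβ0, hβN, hβc, hβn⟩ := hcut _ h1 h2
        have h3 : ¬ Ed u M (w h₀ (β - 1)) (w h₀ (β - 1 + 1)) := by
          rwa [Nat.sub_add_cancel hβ0]
        obtain ⟨S, jj, hSc, hS, hmem, heq⟩ := exists_cut_sep (u := u) (M := M) hw h₀
          (j₀ := β - 1) (by omega) (hv h₀ (β - 1) (by omega) h3)
        rw [Nat.sub_add_cancel hβ0] at hS
        exact ⟨β, S, jj, fun h => absurd h (by omega), fun h => absurd h (by omega),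
          fun _ _ => ⟨⟨hβ0, hβN, hβn, hS, hmem, heq⟩, hSc, hβc⟩⟩
  choose β S jj hβ0 hβd hcutd using hdata
  -- the counts
  have hcount : ∀ n ≤ d, n * (d * κ) ≤ (F (β n)).card ∧ (n < d → (F (β n)).card = n * (d * κ)) := by
    intro n hn
    rcases Nat.eq_zero_or_pos n with rfl | hn0
    · rw [hβ0 0 rfl, hF0]
      simp
    · rcases hn.lt_or_eq with h | rfl
      · have h1 := (hcutd n hn0 h).2.2
        exact ⟨h1.ge, fun _ => h1⟩
      · rw [hβd n le_rfl, hFend]
        exact ⟨by rw [← Nat.mul_assoc]; exact hV, fun h => absurd h (lt_irrefl _)⟩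
  have hβmono1 : ∀ n < d, β n < β (n + 1) := by
    intro n hn
    by_contra h
    have h1 := card_le_card (hFmono _ _ (not_lt.1 h))
    have h2 := (hcount n hn.le).2 hn
    have h3 := (hcount (n + 1) hn).1
    have h4 : 0 < d * κ := Nat.mul_pos hd hκ
    have h5 : (n + 1) * (d * κ) = n * (d * κ) + d * κ := by ring
    omega
  have hβmono : ∀ a b, a ≤ b → b ≤ d → β a ≤ β b := by
    intro a b hab
    induction b, hab using Nat.le_induction with
    | base => exact fun _ => le_rfl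
    | succ b _ ih => exact fun hb => (ih (by omega)).trans (hβmono1 b (by omega)).le
  -- all separators
  set SS : Finset V := ((range d).filter fun n => 0 < n).biUnion S with hSS
  have hSSmem : ∀ n, 0 < n → n < d → ∀ s ∈ S n, s ∈ SS := by
    intro n h0 h1 s hs
    exact mem_biUnion.2 ⟨n, mem_filter.2 ⟨mem_range.2 h1, h0⟩, hs⟩
  have hSSc : SS.card < d * κ := by
    have h1 : SS.card ≤ ∑ n ∈ (range d).filter (fun n => 0 < n), (S n).card := card_biUnion_le
    have h2 : ∑ n ∈ (range d).filter (fun n => 0 < n), (S n).card ≤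
        ∑ _n ∈ (range d).filter (fun n => 0 < n), κ := by
      refine sum_le_sum fun n hn => ?_
      rw [mem_filter, mem_range] at hn
      exact (hcutd n hn.2 hn.1).2.1.le
    have h3 : ((range d).filter fun n => 0 < n).card < d := by
      have h4 : (range d).filter (fun n => 0 < n) ⊆ (range d).erase 0 := by
        intro n hn
        rw [mem_filter, mem_range] at hn
        exact mem_erase.2 ⟨by omega, mem_range.2 hn.1⟩
      have h5 := card_le_card h4
      rw [card_erase_of_mem (mem_range.2 hd), card_range] at h5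
      omega
    rw [sum_const, smul_eq_mul] at h2
    have h4 : ((range d).filter fun n => 0 < n).card * κ < d * κ :=
      Nat.mul_lt_mul_of_pos_right h3 hκ
    exact lt_of_le_of_lt (h1.trans h2) h4
  -- the paths
  have hpath : ∀ n : Fin d, ∃ i ∈ Vs, (∀ m ≤ M i, u i m ∉ SS) ∧
      ∃ j, β n ≤ j ∧ j < β (n + 1) ∧ j ≤ N h₀ ∧ ∃ m ≤ M i, u i m = w h₀ j := by
    intro n
    set W := F (β (n + 1)) \ F (β n) with hW
    have hWc : d * κ ≤ W.card := by
      have h1 := card_sdiff_add_card_eq_card (hFmono _ _ (hβmono1 n n.2).le)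
      have h2 := (hcount n n.2.le).2 n.2
      have h3 := (hcount (n + 1) n.2).1
      have h5 : ((n : ℕ) + 1) * (d * κ) = n * (d * κ) + d * κ := by ring
      rw [← hW] at h1
      rw [h5] at h3
      rw [← h1, h2] at h3
      omega
    by_contra hcon
    push Not at hcon
    -- every path of `W` meets `SS`
    have hbad : ∀ i ∈ W, ∃ m, m ≤ M i ∧ u i m ∈ SS := by
      intro i hi
      rw [hW, mem_sdiff] at hi
      have hiF := hi.1
      rw [hF, mem_filter] at hiF
      obtain ⟨hiV, j, hj, hjN, m, hm, he⟩ := hiF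
      have hjβ : β n ≤ j := by
        by_contra h
        apply hi.2
        rw [hF, mem_filter]
        exact ⟨hiV, j, by omega, hjN, m, hm, he⟩
      by_contra h
      push Not at h
      exact hcon i hiV h j hjβ hj hjN m hm he
    choose! mm hmm1 hmm2 using hbad
    have h1 : W.card ≤ SS.card := by
      refine card_le_card_of_injOn (fun i => u i (mm i)) (fun i hi => hmm2 i hi) ?_
      intro i hi i' hi' he
      exact (hu i _ i' _ (hmm1 i hi) (hmm1 i' hi') he).1
    exact absurd (hWc.trans h1) (not_le.2 hSSc)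
  choose Vn hVn1 hVn2 jn hjn1 hjn2 hjn3 mn hmn1 hmn2 using hpath
  refine ⟨Vn, fun h n => if n = 0 then 0 else if d ≤ n then N h + 1 else jj n h, ?_, hVn1, ?_⟩
  · -- injectivity
    have key : ∀ n n' : Fin d, n < n' → Vn n ≠ Vn n' := by
      intro n n' hnn he
      have hn' : (n : ℕ) < n' := hnn
      have hlt : (n : ℕ) + 1 < d := by have := n'.2; omega
      have hc := (hcutd (n + 1) (Nat.succ_pos _) hlt).1
      have hiS : ∀ m ≤ M (Vn n), u (Vn n) m ∉ S (n + 1) := fun m hm hs =>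
        hVn2 n m hm (hSSmem _ (Nat.succ_pos _) hlt _ hs)
      have h1 : β (n + 1) ≤ jn n' := (hβmono _ _ hn' n'.2.le).trans (hjn1 n')
      have h2 : mn n' ≤ M (Vn n) := by rw [he]; exact hmn1 n'
      have h3 : u (Vn n) (mn n') = w h₀ (jn n') := by rw [he]; exact hmn2 n'
      exact hc.not_reach hw hiS (hjn3 n) (hjn3 n') (hmn1 n) h2 (hmn2 n) h3
        (Or.inl ⟨rfl, hjn2 n⟩) (Or.inl ⟨rfl, h1⟩)
    intro n n' he
    rcases lt_trichotomy n n' with h | h | h
    · exact absurd he (key n n' h)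
    · exact h
    · exact absurd he.symm (key n' n h)
  · intro h hh
    have hne : h ≠ h₀ := fun e => hh₀ (e ▸ hh)
    have hloc : ∀ n : Fin d, ∀ m ≤ M (Vn n), ∀ j ≤ N h, u (Vn n) m = w h j →
        (if (n : ℕ) = 0 then 0 else if d ≤ (n : ℕ) then N h + 1 else jj n h) ≤ j ∧
        j < (if (n : ℕ) + 1 = 0 then 0 else if d ≤ (n : ℕ) + 1 then N h + 1 else jj (n + 1) h) := by
      intro n m hm j hj he
      constructor
      · by_cases hn0 : (n : ℕ) = 0
        · rw [if_pos hn0]; exact Nat.zero_le _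
        · rw [if_neg hn0, if_neg (by have := n.2; omega)]
          by_contra hlt
          have hc := (hcutd n (Nat.pos_of_ne_zero hn0) n.2).1
          have hiS : ∀ m ≤ M (Vn n), u (Vn n) m ∉ S n := fun m hm hs =>
            hVn2 n m hm (hSSmem _ (Nat.pos_of_ne_zero hn0) n.2 _ hs)
          exact hc.not_reach hw hiS hj (hjn3 n) hm (hmn1 n) he (hmn2 n)
            (Or.inr ⟨hne, not_le.1 hlt⟩) (Or.inl ⟨rfl, hjn1 n⟩)
      · rw [if_neg (Nat.succ_ne_zero _)]
        by_cases hdn : d ≤ (n : ℕ) + 1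
        · rw [if_pos hdn]; omega
        · rw [if_neg hdn]
          have hc := (hcutd (n + 1) (Nat.succ_pos _) (by omega)).1
          have hiS : ∀ m ≤ M (Vn n), u (Vn n) m ∉ S (n + 1) := fun m hm hs =>
            hVn2 n m hm (hSSmem _ (Nat.succ_pos _) (by omega) _ hs)
          by_contra hlt
          rcases (not_lt.1 hlt).lt_or_eq with h1 | h1
          · exact hc.not_reach hw hiS (hjn3 n) hj (hmn1 n) hm (hmn2 n) he
              (Or.inl ⟨rfl, hjn2 n⟩) (Or.inr ⟨hne, h1⟩)
          · apply hiS m hm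
            rw [he, ← h1]
            exact (hc.mem h hne).2
    refine ⟨if_pos rfl, ?_, ?_, hloc⟩
    · show (if d = 0 then 0 else if d ≤ d then N h + 1 else jj d h) = N h + 1
      rw [if_neg (by omega), if_pos le_rfl]
    · intro n hn
      obtain ⟨m, hm, j, hj, he⟩ := meet (Vn ⟨n, hn⟩) (hVn1 _) h (mem_insert_of_mem hh)
      have h1 := hloc ⟨n, hn⟩ m hm j hj he
      exact lt_of_le_of_lt h1.1 h1.2

end Vale.Agent.P235.H154
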