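import Mathlib

/-!
# Menger's theorem for finite digraphs, from Hall's theorem (helper154)

Paths are functions `ℕ → V` on `[0, L]`.
-/

set_option autoImplicit false

open Finset

namespace Vale.Agent.P235.H154

variable {V : Type*}

/-- `k` disjoint `R`-paths from `A` to `B` : `v i` on `[0, L i]` -/
structure Link (R : V → V → Prop) (A B : Finset V) {k : ℕ} (v : Fin k → ℕ → V) (L : Fin k → ℕ) :
    Prop where
  start : ∀ i, v i 0 ∈ A
  stop : ∀ i, v i (L i) ∈ B
  adj : ∀ i, ∀ j < L i, R (v i j) (v i (j + 1))
  inj : ∀ i j i' j', j ≤ L i → j' ≤ L i' → v i j = v i' j' → i = i' ∧ j = j'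

/-- `S` meets every `R`-walk from `A` to `B` -/
def Sep (R : V → V → Prop) (A B S : Finset V) : Prop :=
  ∀ (w : ℕ → V) (n : ℕ), w 0 ∈ A → w n ∈ B → (∀ j < n, R (w j) (w (j + 1))) → ∃ j ≤ n, w j ∈ S

variable [Fintype V] [DecidableEq V]

/-- **Menger's theorem** -/
theorem menger (R : V → V → Prop) (A B : Finset V) (k : ℕ) :
    (∃ (v : Fin k → ℕ → V) (L : Fin k → ℕ), Link R A B v L) ∨
      ∃ S : Finset V, S.card < k ∧ Sep R A B S := by
  classical
  -- the bipartite graph
  set N : V → Finset V := fun v => univ.filter fun w => w = v ∨ R v w with hN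
  set t : Fin k ⊕ V → Finset (V ⊕ V) := fun x => match x with
    | Sum.inl _ => A.map Function.Embedding.inl
    | Sum.inr v => (N v).map Function.Embedding.inl ∪ (if v ∈ B then {Sum.inr v} else ∅) with ht
  by_cases hHall : ∀ s : Finset (Fin k ⊕ V), s.card ≤ (s.biUnion t).card
  · -- the matching
    left
    obtain ⟨f, hf, hft⟩ := (Finset.all_card_le_biUnion_card_iff_exists_injective t).1 hHall
    have h0 : ∀ i : Fin k, ∃ a ∈ A, f (Sum.inl i) = Sum.inl a := by
      intro i
      have h := hft (Sum.inl i)
      simp only [ht, mem_map, Function.Embedding.inl_apply] at h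
      obtain ⟨a, ha, h⟩ := h
      exact ⟨a, ha, h.symm⟩
    choose s hsA hs using h0
    have h1 : ∀ v w : V, f (Sum.inr v) = Sum.inl w → w = v ∨ R v w := by
      intro v w h
      have h2 := hft (Sum.inr v)
      rw [h] at h2
      simp only [ht, mem_union, mem_map, Function.Embedding.inl_apply] at h2
      rcases h2 with ⟨a, ha, h2⟩ | h2
      · rw [hN, mem_filter] at ha
        rw [← Sum.inl.inj h2]
        exact ha.2
      · split_ifs at h2 <;> simp at h2
    have h2 : ∀ v w : V, f (Sum.inr v) = Sum.inr w → v ∈ B := by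
      intro v w h
      have h2 := hft (Sum.inr v)
      rw [h] at h2
      simp only [ht, mem_union, mem_map, Function.Embedding.inl_apply] at h2
      rcases h2 with ⟨a, _, h2⟩ | h2
      · cases h2
      · by_contra h3
        rw [if_neg h3] at h2
        simp at h2
    set step : V → V := fun v => match f (Sum.inr v) with
      | Sum.inl w => w
      | Sum.inr _ => v with hstep
    have hstep' : ∀ v w, f (Sum.inr v) = Sum.inl w → step v = w := by
      intro v w h
      simp only [hstep, h]
    set v : Fin k → ℕ → V := fun i j => step^[j] (s i) with hv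
    have hv0 : ∀ i, v i 0 = s i := fun i => rfl
    have hvs : ∀ i j, v i (j + 1) = step (v i j) := fun i j => Function.iterate_succ_apply' _ _ _
    -- joint injectivity
    have hinj : ∀ j i i' j', (∀ m < j, ∃ w, f (Sum.inr (v i m)) = Sum.inl w) →
        (∀ m < j', ∃ w, f (Sum.inr (v i' m)) = Sum.inl w) → v i j = v i' j' → i = i' ∧ j = j' := by
      intro j
      induction j with
      | zero =>
        intro i i' j' _ hm' h
        rcases j' with _ | j'
        · rw [hv0, hv0] at h
          have h3 : f (Sum.inl i) = f (Sum.inl i') := by rw [hs, hs, h]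
          exact ⟨Sum.inl.inj (hf h3), rfl⟩
        · exfalso
          obtain ⟨w, hw⟩ := hm' j' (Nat.lt_succ_self _)
          rw [hv0, hvs, hstep' _ _ hw] at h
          have h3 : f (Sum.inl i) = f (Sum.inr (v i' j')) := by rw [hs, hw, h]
          cases hf h3
      | succ j ih =>
        intro i i' j' hm hm' h
        obtain ⟨w, hw⟩ := hm j (Nat.lt_succ_self _)
        rcases j' with _ | j'
        · exfalso
          rw [hv0, hvs, hstep' _ _ hw] at h
          have h3 : f (Sum.inl i') = f (Sum.inr (v i j)) := by rw [hs, hw, h]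
          cases hf h3
        · obtain ⟨w', hw'⟩ := hm' j' (Nat.lt_succ_self _)
          rw [hvs, hvs, hstep' _ _ hw, hstep' _ _ hw'] at h
          have h3 : f (Sum.inr (v i j)) = f (Sum.inr (v i' j')) := by rw [hw, hw', h]
          have h4 := ih i i' j' (fun m hm1 => hm m (hm1.trans (Nat.lt_succ_self _)))
            (fun m hm1 => hm' m (hm1.trans (Nat.lt_succ_self _))) (Sum.inr.inj (hf h3))
          exact ⟨h4.1, by rw [h4.2]⟩
    -- the paths stop
    have hex : ∀ i, ∃ j, ∃ w, f (Sum.inr (v i j)) = Sum.inr w := by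
      intro i
      by_contra hcon
      push Not at hcon
      have h3 : ∀ m, ∃ w, f (Sum.inr (v i m)) = Sum.inl w := by
        intro m
        rcases hfm : f (Sum.inr (v i m)) with w | w
        · exact ⟨w, rfl⟩
        · exact absurd hfm (hcon m w)
      have h4 : Function.Injective (v i) := fun j j' h =>
        (hinj j i i j' (fun m _ => h3 m) (fun m _ => h3 m) h).2
      exact not_injective_infinite_finite _ h4
    set L : Fin k → ℕ := fun i => Nat.find (hex i) with hL
    have hbelow : ∀ i, ∀ m < L i, ∃ w, f (Sum.inr (v i m)) = Sum.inl w := by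
      intro i m hm
      rcases hfm : f (Sum.inr (v i m)) with w | w
      · exact ⟨w, rfl⟩
      · exact absurd ⟨w, hfm⟩ (Nat.find_min (hex i) hm)
    have hI : ∀ i j i' j', j ≤ L i → j' ≤ L i' → v i j = v i' j' → i = i' ∧ j = j' :=
      fun i j i' j' hj hj' h => hinj j i i' j' (fun m hm => hbelow i m (hm.trans_le hj))
        (fun m hm => hbelow i' m (hm.trans_le hj')) h
    refine ⟨v, L, fun i => hsA i, fun i => ?_, fun i j hj => ?_, hI⟩
    · obtain ⟨w, hw⟩ := Nat.find_spec (hex i)
      exact h2 _ w hw
    · obtain ⟨w, hw⟩ := hbelow i j hj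
      have h3 : v i (j + 1) = w := by rw [hvs, hstep' _ _ hw]
      rcases h1 _ _ hw with h4 | h4
      · exfalso
        have h5 := hI i (j + 1) i j hj hj.le (by rw [h3, h4])
        omega
      · rw [h3]; exact h4
  · -- the separator
    right
    push Not at hHall
    obtain ⟨s, hs⟩ := hHall
    set O : Finset V := univ.filter fun v => Sum.inr v ∈ s with hO
    set D : Finset (Fin k) := univ.filter fun i => Sum.inl i ∈ s with hD
    have hsc : s.card = D.card + O.card := by
      have h1 : s = D.map Function.Embedding.inl ∪ O.map Function.Embedding.inr := by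
        ext x
        rcases x with i | v
        · simp [hD]
        · simp [hO]
      have h2 : Disjoint (D.map (Function.Embedding.inl : Fin k ↪ Fin k ⊕ V))
          (O.map Function.Embedding.inr) := by
        rw [Finset.disjoint_left]
        intro x hx hx'
        simp only [mem_map, Function.Embedding.inl_apply, Function.Embedding.inr_apply] at hx hx'
        obtain ⟨a, _, rfl⟩ := hx
        obtain ⟨b, _, hb⟩ := hx'
        cases hb
      rw [h1, card_union_of_disjoint h2, card_map, card_map]
    have hN' : ∀ v ∈ O, ∀ w ∈ N v, Sum.inl w ∈ s.biUnion t := by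
      intro v hv w hw
      rw [mem_biUnion]
      refine ⟨Sum.inr v, (mem_filter.1 hv).2, ?_⟩
      simp only [ht, mem_union, mem_map, Function.Embedding.inl_apply]
      exact Or.inl ⟨w, hw, rfl⟩
    have hB' : ∀ v ∈ O, v ∈ B → Sum.inr v ∈ s.biUnion t := by
      intro v hv hvB
      rw [mem_biUnion]
      refine ⟨Sum.inr v, (mem_filter.1 hv).2, ?_⟩
      simp only [ht, mem_union, if_pos hvB, mem_singleton, or_true]
    have hOO : ∀ v ∈ O, Sum.inl v ∈ s.biUnion t := fun v hv =>
      hN' v hv v (by simp [hN])
    have hDne : D.Nonempty := by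
      by_contra hD0
      rw [not_nonempty_iff_eq_empty] at hD0
      have h1 : (O.map (Function.Embedding.inl : V ↪ V ⊕ V)).card ≤ (s.biUnion t).card := by
        apply card_le_card
        intro x hx
        simp only [mem_map, Function.Embedding.inl_apply] at hx
        obtain ⟨v, hv, rfl⟩ := hx
        exact hOO v hv
      rw [card_map] at h1
      rw [hsc, hD0, card_empty, zero_add] at hs
      omega
    have hAA : ∀ a ∈ A, Sum.inl a ∈ s.biUnion t := by
      intro a ha
      obtain ⟨i, hi⟩ := hDne
      rw [mem_biUnion]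
      refine ⟨Sum.inl i, (mem_filter.1 hi).2, ?_⟩
      simp only [ht, mem_map, Function.Embedding.inl_apply]
      exact ⟨a, ha, rfl⟩
    set M : Finset V := A ∪ O.biUnion N with hM
    have hOM : O ⊆ M := fun v hv => mem_union_right _ (mem_biUnion.2 ⟨v, hv, by simp [hN]⟩)
    have hcard : M.card + (O ∩ B).card ≤ (s.biUnion t).card := by
      have h2 : Disjoint (M.map (Function.Embedding.inl : V ↪ V ⊕ V))
          ((O ∩ B).map Function.Embedding.inr) := by
        rw [Finset.disjoint_left]
        intro x hx hx'
        simp only [mem_map, Function.Embedding.inl_apply, Function.Embedding.inr_apply] at hx hx'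
        obtain ⟨a, _, rfl⟩ := hx
        obtain ⟨b, _, hb⟩ := hx'
        cases hb
      have h3 := card_union_of_disjoint h2
      rw [card_map, card_map] at h3
      rw [← h3]
      apply card_le_card
      intro x hx
      rw [mem_union] at hx
      rcases hx with hx | hx
      · simp only [mem_map, Function.Embedding.inl_apply] at hx
        obtain ⟨v, hv, rfl⟩ := hx
        rw [hM, mem_union] at hv
        rcases hv with hv | hv
        · exact hAA v hv
        · obtain ⟨o, ho, hv⟩ := mem_biUnion.1 hv
          exact hN' o ho v hv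
      · simp only [mem_map, Function.Embedding.inr_apply] at hx
        obtain ⟨v, hv, rfl⟩ := hx
        exact hB' v (mem_inter.1 hv).1 (mem_inter.1 hv).2
    have hDk : D.card ≤ k := by
      have := card_le_univ D
      rwa [Fintype.card_fin] at this
    refine ⟨(M \ O) ∪ (O ∩ B), ?_, ?_⟩
    · have h1 := card_union_le (M \ O) (O ∩ B)
      have h2 := card_sdiff_add_card_eq_card hOM
      omega
    · intro w n hw0 hwn hw
      by_contra hcon
      push Not at hcon
      have hall : ∀ j ≤ n, w j ∈ O := by
        intro j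
        induction j with
        | zero =>
          intro _
          by_contra h
          exact hcon 0 (Nat.zero_le _) (mem_union_left _ (mem_sdiff.2 ⟨mem_union_left _ hw0, h⟩))
        | succ j ih =>
          intro hj
          have h1 := ih (by omega)
          by_contra h
          refine hcon (j + 1) hj (mem_union_left _ (mem_sdiff.2 ⟨mem_union_right _ ?_, h⟩))
          exact mem_biUnion.2 ⟨w j, h1, mem_filter.2 ⟨mem_univ _, Or.inr (hw j (by omega))⟩⟩
      exact hcon n le_rfl (mem_union_right _ (mem_inter.2 ⟨hall n le_rfl, hwn⟩))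

omit [Fintype V] [DecidableEq V] in
/-- **trimming** : the paths can be shortened so that only the first vertex is in `A` and only the
last one in `B` -/
theorem Link.trim {R : V → V → Prop} {A B : Finset V} {k : ℕ} {v : Fin k → ℕ → V} {L : Fin k → ℕ}
    (h : Link R A B v L) : ∃ (v' : Fin k → ℕ → V) (L' : Fin k → ℕ), Link R A B v' L' ∧
      (∀ i, ∀ j ≤ L' i, v' i j ∈ A → j = 0) ∧ (∀ i, ∀ j ≤ L' i, v' i j ∈ B → j = L' i) ∧
      ∀ i, ∃ c, c + L' i ≤ L i ∧ ∀ j, v' i j = v i (c + j) := by
  classical
  -- last vertex in `A`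
  have h1 : ∀ i, ∃ c, c ≤ L i ∧ v i c ∈ A ∧ ∀ j, c < j → j ≤ L i → v i j ∉ A := by
    intro i
    set T := (range (L i + 1)).filter fun j => v i j ∈ A with hT
    have hne : T.Nonempty := ⟨0, by simp [hT, h.start i]⟩
    refine ⟨T.max' hne, ?_, ?_, fun j hj hjL hjA => ?_⟩
    · have := (mem_filter.1 (T.max'_mem hne)).1
      rw [mem_range] at this
      omega
    · exact (mem_filter.1 (T.max'_mem hne)).2
    · have h2 : j ∈ T := mem_filter.2 ⟨mem_range.2 (by omega), hjA⟩
      exact absurd (T.le_max' j h2) (not_le.2 hj)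
  choose c hcL hcA hc using h1
  have h2 : ∀ i, ∃ l, c i + l ≤ L i ∧ v i (c i + l) ∈ B ∧ ∀ m < l, v i (c i + m) ∉ B := by
    intro i
    have hex : ∃ l, c i + l ≤ L i ∧ v i (c i + l) ∈ B :=
      ⟨L i - c i, by have := hcL i; omega, by
        rw [show c i + (L i - c i) = L i by have := hcL i; omega]; exact h.stop i⟩
    refine ⟨Nat.find hex, (Nat.find_spec hex).1, (Nat.find_spec hex).2, fun m hm hmB => ?_⟩
    exact Nat.find_min hex hm ⟨by have := (Nat.find_spec hex).1; omega, hmB⟩
  choose l hlL hlB hl using h2
  refine ⟨fun i j => v i (c i + j), l, ⟨fun i => hcA i, fun i => hlB i, fun i j hj => ?_, ?_⟩,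
    fun i j hj hA => ?_, fun i j hj hB => ?_, fun i => ⟨c i, hlL i, fun j => rfl⟩⟩
  · have h3 := hlL i
    have h4 := h.adj i (c i + j) (by omega)
    rwa [show c i + j + 1 = c i + (j + 1) by ring] at h4
  · intro i j i' j' hj hj' he
    have h3 := hlL i
    have h4 := hlL i'
    obtain ⟨rfl, h5⟩ := h.inj i (c i + j) i' (c i' + j') (by omega) (by omega) he
    exact ⟨rfl, by omega⟩
  · by_contra hj0
    exact hc i (c i + j) (by omega) (by have := hlL i; omega) hA
  · by_contra hjl
    exact hl i j (by omega) hB

/-- **Menger's theorem**, strict form -/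
theorem menger_strict (R : V → V → Prop) (A B : Finset V) (k : ℕ) :
    (∃ (v : Fin k → ℕ → V) (L : Fin k → ℕ), Link R A B v L ∧
      (∀ i, ∀ j ≤ L i, v i j ∈ A → j = 0) ∧ (∀ i, ∀ j ≤ L i, v i j ∈ B → j = L i)) ∨
      ∃ S : Finset V, S.card < k ∧ Sep R A B S := by
  rcases menger R A B k with ⟨v, L, h⟩ | h
  · obtain ⟨v', L', h1, h2, h3, _⟩ := h.trim
    exact Or.inl ⟨v', L', h1, h2, h3⟩
  · exact Or.inr h

end Vale.Agent.P235.H154
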