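import Vale.Agent.P235.H154.Menger

/-!
# The grid theorem: edge relations of path systems, minimal new edges (helper154)
-/

set_option autoImplicit false
set_option linter.unusedSectionVars false

open Finset

namespace Vale.Agent.P235.H154

variable {V : Type*}

/-- the edge relation of a system of paths `u i` on `[0, M i]` -/
def Ed {K : ℕ} (u : Fin K → ℕ → V) (M : Fin K → ℕ) (a b : V) : Prop :=
  ∃ i j, j < M i ∧ ((a = u i j ∧ b = u i (j + 1)) ∨ (b = u i j ∧ a = u i (j + 1)))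

theorem Ed.symm {K : ℕ} {u : Fin K → ℕ → V} {M : Fin K → ℕ} {a b : V} (h : Ed u M a b) :
    Ed u M b a := by
  obtain ⟨i, j, hj, h⟩ := h
  exact ⟨i, j, hj, h.symm⟩

theorem Ed.mk' {K : ℕ} (u : Fin K → ℕ → V) (M : Fin K → ℕ) (i : Fin K) {j : ℕ} (hj : j < M i) :
    Ed u M (u i j) (u i (j + 1)) := ⟨i, j, hj, Or.inl ⟨rfl, rfl⟩⟩

theorem Link.ed {R : V → V → Prop} (hR : ∀ a b, R a b → R b a) {A B : Finset V} {k : ℕ}
    {v : Fin k → ℕ → V} {L : Fin k → ℕ} (h : Link R A B v L) {a b : V} (hab : Ed v L a b) :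
    R a b := by
  obtain ⟨i, j, hj, ⟨rfl, rfl⟩ | ⟨rfl, rfl⟩⟩ := hab
  · exact h.adj i j hj
  · exact hR _ _ (h.adj i j hj)

theorem Link.mono {R R' : V → V → Prop} {A B : Finset V} {k : ℕ} {v : Fin k → ℕ → V}
    {L : Fin k → ℕ} (h : Link R A B v L) (hRR : ∀ a b, R a b → R' a b) : Link R' A B v L :=
  ⟨h.start, h.stop, fun i j hj => hRR _ _ (h.adj i j hj), h.inj⟩

/-- a link is a link of its own edges -/
theorem Link.self {R : V → V → Prop} {A B : Finset V} {k : ℕ} {v : Fin k → ℕ → V}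
    {L : Fin k → ℕ} (h : Link R A B v L) : Link (Ed v L) A B v L :=
  ⟨h.start, h.stop, fun i _ hj => Ed.mk' v L i hj, h.inj⟩

/-- **minimal new edges** : a linkage of `κ` paths in `Rp ∨ Rq` such that no edge of it which is
not in `Rp` can be avoided -/
theorem exists_min_link [Fintype V] [DecidableEq V] {κ : ℕ} (Rp Rq : V → V → Prop)
    (hp : ∀ a b, Rp a b → Rp b a) (hq : ∀ a b, Rq a b → Rq b a) (A B : Finset V)
    (hex : ∃ (v : Fin κ → ℕ → V) (L : Fin κ → ℕ), Link (fun a b => Rp a b ∨ Rq a b) A B v L) :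
    ∃ (w : Fin κ → ℕ → V) (N : Fin κ → ℕ), Link (fun a b => Rp a b ∨ Rq a b) A B w N ∧
      ∀ h, ∀ j < N h, ¬ Rp (w h j) (w h (j + 1)) →
        ¬ ∃ (v : Fin κ → ℕ → V) (L : Fin κ → ℕ),
          Link (fun a b => (Rp a b ∨ Ed w N a b) ∧ s(a, b) ≠ s(w h j, w h (j + 1))) A B v L := by
  classical
  set ne : (Fin κ → ℕ → V) → (Fin κ → ℕ) → Finset (V × V) := fun v L =>
    univ.filter fun p => ¬ Rp p.1 p.2 ∧ Ed v L p.1 p.2 with hne
  have hex' : ∃ m, ∃ (v : Fin κ → ℕ → V) (L : Fin κ → ℕ),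
      Link (fun a b => Rp a b ∨ Rq a b) A B v L ∧ (ne v L).card = m := by
    obtain ⟨v, L, h⟩ := hex
    exact ⟨_, v, L, h, rfl⟩
  obtain ⟨w, N, hw, hcard⟩ := Nat.find_spec hex'
  refine ⟨w, N, hw, ?_⟩
  rintro h j hj hnew ⟨v, L, hv⟩
  have hR : ∀ a b, (Rp a b ∨ Rq a b) → (Rp b a ∨ Rq b a) := fun a b h => h.imp (hp a b) (hq a b)
  have hv' : Link (fun a b => Rp a b ∨ Rq a b) A B v L :=
    hv.mono fun a b h => h.1.elim Or.inl fun h => hw.ed hR h
  have hsymm : ∀ a b, ((Rp a b ∨ Ed w N a b) ∧ s(a, b) ≠ s(w h j, w h (j + 1))) →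
      ((Rp b a ∨ Ed w N b a) ∧ s(b, a) ≠ s(w h j, w h (j + 1))) := fun a b h =>
    ⟨h.1.imp (hp a b) Ed.symm, by rw [Sym2.eq_swap]; exact h.2⟩
  have hsub : ne v L ⊆ (ne w N).erase (w h j, w h (j + 1)) := by
    intro p hp1
    simp only [hne, mem_filter, mem_univ, true_and] at hp1
    have h1 := hv.ed hsymm hp1.2
    rw [mem_erase]
    refine ⟨fun he => h1.2 (by rw [he]), ?_⟩
    simp only [hne, mem_filter, mem_univ, true_and]
    exact ⟨hp1.1, h1.1.resolve_left hp1.1⟩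
  have hmem : (w h j, w h (j + 1)) ∈ ne w N := by
    simp only [hne, mem_filter, mem_univ, true_and]
    exact ⟨hnew, Ed.mk' w N h hj⟩
  have h1 := card_le_card hsub
  rw [card_erase_of_mem hmem] at h1
  have h2 := card_pos.2 ⟨_, hmem⟩
  exact Nat.find_min hex' (m := (ne v L).card) (by omega) ⟨v, L, hv', rfl⟩

end Vale.Agent.P235.H154
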